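import Vale.Agent.P068.Uniform

/-! The transfinite construction. -/

open Set Cardinal

namespace Vale.Agent.P068

/-- every family of fewer than continuum many infinite subsets of the naturals is split by one set -/
def Reap : Prop := ∀ 𝓕 : Set (Set ℕ), Cardinal.mk 𝓕 < Cardinal.continuum → (∀ A ∈ 𝓕, A.Infinite) →
  ∃ X : Set ℕ, ∀ A ∈ 𝓕, (A ∩ X).Infinite ∧ (A \ X).Infinite

lemma rec_construct {X ι : Type} [LinearOrder ι] [WellFoundedLT ι]
    (hι : ∀ i : ι, Cardinal.mk (Iio i) < continuum) (Good : Set X → Prop) (s0 : Set X)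
    (h0 : Good s0) (hs0 : s0.Finite)
    (hdir : ∀ c : Set (Set X), c.Nonempty → IsChain (· ⊆ ·) c → (∀ s ∈ c, Good s) → Good (⋃₀ c))
    (Done : ι → Set X → Prop) (hmono : ∀ i s s', s ⊆ s' → Done i s → Done i s')
    (hstep : ∀ s, Good s → Cardinal.mk s < continuum → ∀ i, ∃ t : Set X, t.Finite ∧ Good (s ∪ t) ∧
      Done i (s ∪ t)) : ∃ s, Good s ∧ ∀ i, Done i s := by
  classical
  have hstep' : ∀ (s : Set X) (i : ι), ∃ t : Set X, t.Finite ∧
      (Good s → Cardinal.mk s < continuum → Good (s ∪ t) ∧ Done i (s ∪ t)) := by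
    intro s i
    by_cases h : Good s ∧ Cardinal.mk s < continuum
    · obtain ⟨t, h1, h2⟩ := hstep s h.1 h.2 i
      exact ⟨t, h1, fun _ _ => h2⟩
    · exact ⟨∅, finite_empty, fun a b => absurd ⟨a, b⟩ h⟩
  choose g hgf hg using hstep'
  let F : ι → Set X := (wellFounded_lt (α := ι)).fix
    (fun i rec => g (s0 ∪ ⋃ j : Iio i, rec j.1 j.2) i)
  let prev : ι → Set X := fun i => s0 ∪ ⋃ j : Iio i, F j.1
  have hF : ∀ i, F i = g (prev i) i := fun i => by
    simp only [F, prev]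
    rw [WellFounded.fix_eq]
  have hcard : ∀ i, Cardinal.mk (prev i) < continuum := by
    intro i
    refine lt_of_le_of_lt (mk_union_le _ _) (add_lt_of_lt aleph0_le_continuum
      (hs0.lt_aleph0.trans aleph0_lt_continuum) ?_)
    refine lt_of_le_of_lt (mk_iUnion_le _) ?_
    refine mul_lt_of_lt aleph0_le_continuum (hι i) (lt_of_le_of_lt ?_ aleph0_lt_continuum)
    refine ciSup_le' fun j => ?_
    rw [hF]
    exact (hgf _ _).lt_aleph0.le
  have hsub : ∀ i j, j < i → prev j ∪ F j ⊆ prev i := by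
    intro i j hji
    rintro x ((hx | hx) | hx)
    · exact Or.inl hx
    · obtain ⟨k, hk⟩ := mem_iUnion.1 hx
      exact Or.inr (mem_iUnion.2 ⟨⟨k.1, lt_trans k.2 hji⟩, hk⟩)
    · exact Or.inr (mem_iUnion.2 ⟨⟨j, hji⟩, hx⟩)
  have hch : ∀ S : Set ι, IsChain (· ⊆ ·) (insert s0 ((fun j => prev j ∪ F j) '' S)) := by
    intro S
    rintro a (rfl | ⟨j, -, rfl⟩) b (rfl | ⟨k, -, rfl⟩) hab
    · exact absurd rfl hab
    · exact Or.inl (subset_union_left.trans subset_union_left)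
    · exact Or.inr (subset_union_left.trans subset_union_left)
    · rcases lt_trichotomy j k with h | h | h
      · exact Or.inl ((hsub k j h).trans subset_union_left)
      · subst h; exact absurd rfl hab
      · exact Or.inr ((hsub j k h).trans subset_union_left)
  have hgood : ∀ i, Good (prev i) := by
    intro i
    induction i using WellFoundedLT.induction with
    | ind i ih =>
      have e : prev i = ⋃₀ (insert s0 ((fun j => prev j ∪ F j) '' Iio i)) := by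
        apply Subset.antisymm
        · rintro x (hx | hx)
          · exact ⟨s0, Or.inl rfl, hx⟩
          · obtain ⟨k, hk⟩ := mem_iUnion.1 hx
            exact ⟨_, Or.inr ⟨k.1, k.2, rfl⟩, Or.inr hk⟩
        · rintro x ⟨a, (rfl | ⟨j, hj, rfl⟩), hx⟩
          · exact Or.inl hx
          · exact hsub i j hj hx
      rw [e]
      refine hdir _ (insert_nonempty _ _) (hch _) ?_
      rintro a (rfl | ⟨j, hj, rfl⟩)
      · exact h0
      · show Good (prev j ∪ F j)
        rw [hF]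
        exact (hg _ _ (ih j hj) (hcard j)).1
  refine ⟨⋃₀ (insert s0 ((fun j => prev j ∪ F j) '' univ)), ?_, ?_⟩
  · refine hdir _ (insert_nonempty _ _) (hch _) ?_
    rintro a (rfl | ⟨j, -, rfl⟩)
    · exact h0
    · show Good (prev j ∪ F j)
      rw [hF]
      exact (hg _ _ (hgood j) (hcard j)).1
  · intro i
    refine hmono i (prev i ∪ F i) _ (subset_sUnion_of_mem (Or.inr ⟨i, mem_univ _, rfl⟩)) ?_
    rw [hF]
    exact (hg _ _ (hgood i) (hcard i)).2

section Levels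
variable {R : Type} [LinearOrder R]

/-- the order on levels: an increasing copy of `R` followed by a decreasing copy -/
def Le : R ⊕ R → R ⊕ R → Prop
  | Sum.inl a, Sum.inl b => a ≤ b
  | Sum.inl _, Sum.inr _ => True
  | Sum.inr _, Sum.inl _ => False
  | Sum.inr a, Sum.inr b => b ≤ a

/-- admissible pairs of levels -/
def Adm : R ⊕ R → R ⊕ R → Prop
  | Sum.inl a, Sum.inl b => b < a
  | Sum.inl _, Sum.inr _ => False
  | Sum.inr _, Sum.inl _ => False
  | Sum.inr a, Sum.inr b => b < a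

lemma Le.refl (a : R ⊕ R) : Le a a := by
  cases a <;> simp [Le]

lemma Le.trans {a b c : R ⊕ R} (h1 : Le a b) (h2 : Le b c) : Le a c := by
  cases a <;> cases b <;> cases c <;> simp only [Le] at * <;> first | exact le_trans h1 h2 | exact le_trans h2 h1

lemma Le.antisymm {a b : R ⊕ R} (h1 : Le a b) (h2 : Le b a) : a = b := by
  cases a <;> cases b <;> simp only [Le] at *
  · rw [le_antisymm h1 h2]
  · rw [le_antisymm h1 h2]

lemma interp [WellFoundedLT R] (hb : ∀ s : Set R, Cardinal.mk s < continuum → ∃ r, ∀ x ∈ s, x < r)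
    (X Y : Set (R ⊕ R)) (hX : Cardinal.mk X < continuum) (h : ∀ x ∈ X, ∀ y ∈ Y, Le x y) :
    ∃ l, (∀ x ∈ X, Le x l) ∧ ∀ y ∈ Y, Le l y := by
  by_cases h1 : (Sum.inr ⁻¹' X : Set R).Nonempty
  · obtain ⟨a, ha, hmin⟩ := (wellFounded_lt (α := R)).has_min _ h1
    refine ⟨Sum.inr a, ?_, fun y hy => h _ ha y hy⟩
    rintro (x | x) hx
    · trivial
    · exact not_lt.1 (hmin x hx)
  · by_cases h2 : (Sum.inl ⁻¹' Y : Set R).Nonempty
    · obtain ⟨a, ha, hmin⟩ := (wellFounded_lt (α := R)).has_min _ h2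
      refine ⟨Sum.inl a, fun x hx => h x hx _ ha, ?_⟩
      rintro (y | y) hy
      · exact not_lt.1 (hmin y hy)
      · trivial
    · obtain ⟨r, hr⟩ := hb (Sum.inl ⁻¹' X)
        (lt_of_le_of_lt (mk_preimage_of_injective _ _ Sum.inl_injective) hX)
      refine ⟨Sum.inl r, ?_, ?_⟩
      · rintro (x | x) hx
        · exact (hr x hx).le
        · exact absurd ⟨x, hx⟩ h1
      · rintro (y | y) hy
        · exact absurd ⟨y, hy⟩ h2
        · trivial

/-- items of a state: a set with its level, or a base given by two sets -/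
abbrev Item (R : Type) := (Set ℕ × (R ⊕ R)) ⊕ (Set ℕ × Set ℕ)

/-- a decided level -/
def Dec (s : Set (Item R)) (A : Set ℕ) (l : R ⊕ R) : Prop := Sum.inl (A, l) ∈ s

/-- a decided base -/
def Bas (s : Set (Item R)) (J J' : Set ℕ) : Prop := Sum.inr (J, J') ∈ s

/-- consistent states -/
structure Good (s : Set (Item R)) : Prop where
  emp : ∃ r, Dec s ∅ (Sum.inl r)
  unv : ∃ r, Dec s univ (Sum.inr r)
  mono : ∀ A l A' l', Dec s A l → Dec s A' l' → AS A A' → Le l l'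
  anti : ∀ J J' K K', Bas s J J' → Bas s K K' → AS J K → AS K' J' → J = K ∧ J' = K'
  adm : ∀ J J', Bas s J J' → ∃ l l', Dec s J l ∧ Dec s J' l' ∧ Adm l l'

lemma Good.sUnion (c : Set (Set (Item R))) (hne : c.Nonempty) (hc : IsChain (· ⊆ ·) c)
    (h : ∀ s ∈ c, Good s) : Good (⋃₀ c) := by
  have two : ∀ x ∈ ⋃₀ c, ∀ y ∈ ⋃₀ c, ∃ s ∈ c, x ∈ s ∧ y ∈ s := by
    rintro x ⟨s, hs, hx⟩ y ⟨t, ht, hy⟩
    rcases hc.total hs ht with h | h
    · exact ⟨t, ht, h hx, hy⟩
    · exact ⟨s, hs, hx, h hy⟩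
  obtain ⟨s0, hs0⟩ := hne
  constructor
  · obtain ⟨r, hr⟩ := (h s0 hs0).emp
    exact ⟨r, s0, hs0, hr⟩
  · obtain ⟨r, hr⟩ := (h s0 hs0).unv
    exact ⟨r, s0, hs0, hr⟩
  · intro A l A' l' h1 h2
    obtain ⟨s, hs, hx, hy⟩ := two _ h1 _ h2
    exact (h s hs).mono A l A' l' hx hy
  · intro J J' K K' h1 h2
    obtain ⟨s, hs, hx, hy⟩ := two _ h1 _ h2
    exact (h s hs).anti J J' K K' hx hy
  · rintro J J' ⟨s, hs, hx⟩
    obtain ⟨l, l', h1, h2, h3⟩ := (h s hs).adm J J' hx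
    exact ⟨l, l', ⟨s, hs, h1⟩, ⟨s, hs, h2⟩, h3⟩

lemma Good.init (r : R) :
    Good ({Sum.inl (∅, Sum.inl r), Sum.inl (Set.univ, Sum.inr r)} : Set (Item R)) := by
  constructor
  · exact ⟨r, Or.inl rfl⟩
  · exact ⟨r, Or.inr rfl⟩
  · rintro A l A' l' (h1 | h1) (h2 | h2) h <;> cases h1 <;> cases h2
    · exact Le.refl _
    · trivial
    · exact absurd (by simpa [AS] using h) (infinite_univ (α := ℕ))
    · exact Le.refl _
  · rintro J J' K K' (h1 | h1) <;> cases h1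
  · rintro J J' (h1 | h1) <;> cases h1

lemma Good.insert_dec {s : Set (Item R)} (h : Good s) {A : Set ℕ} {l : R ⊕ R}
    (h1 : ∀ D d, Dec s D d → AS D A → Le d l) (h2 : ∀ D d, Dec s D d → AS A D → Le l d) :
    Good (insert (Sum.inl (A, l)) s) := by
  constructor
  · obtain ⟨r, hr⟩ := h.emp
    exact ⟨r, Or.inr hr⟩
  · obtain ⟨r, hr⟩ := h.unv
    exact ⟨r, Or.inr hr⟩
  · rintro B m B' m' (a | a) (b | b) hs
    · cases a; cases b; exact Le.refl _
    · cases a; exact h2 _ _ b hs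
    · cases b; exact h1 _ _ a hs
    · exact h.mono _ _ _ _ a b hs
  · rintro J J' K K' (a | a) (b | b)
    · cases a
    · cases a
    · cases b
    · exact h.anti _ _ _ _ a b
  · rintro J J' (a | a)
    · cases a
    · obtain ⟨l, l', h1, h2, h3⟩ := h.adm J J' a
      exact ⟨l, l', Or.inr h1, Or.inr h2, h3⟩

lemma Good.insert_bas {s : Set (Item R)} (h : Good s) {J J' : Set ℕ} {l l' : R ⊕ R}
    (d1 : Dec s J l) (d2 : Dec s J' l') (ha : Adm l l')
    (h1 : ∀ K K', Bas s K K' → AS J K → AS K' J' → False)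
    (h2 : ∀ K K', Bas s K K' → AS K J → AS J' K' → False) :
    Good (insert (Sum.inr (J, J')) s) := by
  constructor
  · obtain ⟨r, hr⟩ := h.emp
    exact ⟨r, Or.inr hr⟩
  · obtain ⟨r, hr⟩ := h.unv
    exact ⟨r, Or.inr hr⟩
  · rintro B m B' m' (a | a) (b | b) hs
    · cases a
    · cases a
    · cases b
    · exact h.mono _ _ _ _ a b hs
  · rintro K K' N N' (a | a) (b | b) e1 e2
    · cases a; cases b; exact ⟨rfl, rfl⟩
    · cases a; exact (h1 _ _ b e1 e2).elim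
    · cases b; exact (h2 _ _ a e1 e2).elim
    · exact h.anti _ _ _ _ a b e1 e2
  · rintro K K' (a | a)
    · cases a
      exact ⟨l, l', Or.inr d1, Or.inr d2, ha⟩
    · obtain ⟨l, l', h1, h2, h3⟩ := h.adm K K' a
      exact ⟨l, l', Or.inr h1, Or.inr h2, h3⟩

omit [LinearOrder R] in
lemma mk_insert_lt {s : Set (Item R)} (hs : Cardinal.mk s < continuum) (x : Item R) :
    Cardinal.mk (insert x s : Set (Item R)) < continuum :=
  lt_of_le_of_lt mk_insert_le (add_lt_of_lt aleph0_le_continuum hs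
    (one_lt_aleph0.trans aleph0_lt_continuum))

omit [LinearOrder R] in
lemma mk_dec_lt {s : Set (Item R)} (hs : Cardinal.mk s < continuum) {Y : Type}
    (f : Set ℕ × (R ⊕ R) → Y) :
    Cardinal.mk (f '' (Sum.inl ⁻¹' s)) < continuum :=
  lt_of_le_of_lt (mk_image_le.trans (mk_preimage_of_injective _ _ Sum.inl_injective)) hs

lemma Good.decide [WellFoundedLT R]
    (hb : ∀ s : Set R, Cardinal.mk s < continuum → ∃ r, ∀ x ∈ s, x < r)
    {s : Set (Item R)} (h : Good s) (hs : Cardinal.mk s < continuum) (A : Set ℕ) :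
    ∃ l, Good (insert (Sum.inl (A, l)) s) := by
  obtain ⟨l, h1, h2⟩ := interp hb {d | ∃ D, Dec s D d ∧ AS D A} {d | ∃ D, Dec s D d ∧ AS A D}
    (lt_of_le_of_lt (mk_le_mk_of_subset (by
      rintro d ⟨D, hD, -⟩
      exact ⟨(D, d), hD, rfl⟩)) (mk_dec_lt hs Prod.snd))
    (by
      rintro x ⟨D, hD, a⟩ y ⟨D', hD', b⟩
      exact h.mono _ _ _ _ hD hD' (a.trans b))
  exact ⟨l, h.insert_dec (fun D d hD a => h1 d ⟨D, hD, a⟩) (fun D d hD a => h2 d ⟨D, hD, a⟩)⟩

omit [LinearOrder R] in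
lemma generic (hR : Reap) {s : Set (Item R)} (hs : Cardinal.mk s < continuum) {A C : Set ℕ}
    (hAC : A ⊆ C) : ∃ J, A ⊆ J ∧ J ⊆ C ∧
      ∀ D d, Dec s D d → (AS D J → AS D A) ∧ (AS J D → AS C D) := by
  obtain ⟨X, hX⟩ := hR ({Z | Z.Infinite} ∩ ((fun p => p.1 ∩ (C \ A)) '' (Sum.inl ⁻¹' s) ∪
      (fun p => (C \ A) \ p.1) '' (Sum.inl ⁻¹' s)))
    (lt_of_le_of_lt (mk_le_mk_of_subset inter_subset_right) (lt_of_le_of_lt (mk_union_le _ _)
      (add_lt_of_lt aleph0_le_continuum (mk_dec_lt hs _) (mk_dec_lt hs _)))) (fun Z hZ => hZ.1)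
  refine ⟨A ∪ (C ∩ X), subset_union_left, union_subset hAC inter_subset_left, fun D d hD =>
    ⟨fun h => ?_, fun h => ?_⟩⟩
  · unfold AS at *
    have f : (D ∩ (C \ A)).Finite := by
      by_contra hf
      refine (hX _ ⟨hf, Or.inl ⟨(D, d), hD, rfl⟩⟩).2 (h.subset ?_)
      rintro z ⟨⟨h1, h2, h3⟩, h4⟩
      exact ⟨h1, fun h => h.elim h3 (fun h => h4 h.2)⟩
    refine (h.union f).subset ?_
    rintro z ⟨h1, h2⟩
    by_cases hz : z ∈ C
    · exact Or.inr ⟨h1, hz, h2⟩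
    · exact Or.inl ⟨h1, fun h => h.elim h2 (fun h => hz h.1)⟩
  · unfold AS at *
    have f : ((C \ A) \ D).Finite := by
      by_contra hf
      refine (hX _ ⟨hf, Or.inr ⟨(D, d), hD, rfl⟩⟩).1 (h.subset ?_)
      rintro z ⟨⟨⟨h1, _⟩, h3⟩, h4⟩
      exact ⟨Or.inr ⟨h1, h4⟩, h3⟩
    refine (h.union f).subset ?_
    rintro z ⟨h1, h2⟩
    by_cases hz : z ∈ A
    · exact Or.inl ⟨Or.inl hz, h2⟩
    · exact Or.inr ⟨⟨h1, hz⟩, h2⟩

lemma Good.newbase (hR : Reap) {s : Set (Item R)} (h : Good s) (hs : Cardinal.mk s < continuum)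
    {A C A' C' : Set ℕ} {a c a' c' l l' : R ⊕ R} (hAC : A ⊆ C) (hAC' : A' ⊆ C')
    (da : Dec s A a) (dc : Dec s C c) (da' : Dec s A' a') (dc' : Dec s C' c')
    (n1 : ∀ K K', Bas s K K' → AS C K → AS K' A' → False)
    (n2 : ∀ K K', Bas s K K' → AS K A → AS C' K' → False)
    (l1 : Le a l) (l2 : Le l c) (l3 : Le a' l') (l4 : Le l' c') (ha : Adm l l') :
    ∃ t : Set (Item R), t.Finite ∧ Good (s ∪ t) ∧ ∃ J J', Bas (s ∪ t) J J' ∧
      A ⊆ J ∧ J ⊆ C ∧ A' ⊆ J' ∧ J' ⊆ C' := by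
  obtain ⟨J', j1, j2, hJ'⟩ := generic hR hs hAC'
  have g1 : Good (insert (Sum.inl (J', l')) s) := h.insert_dec
    (fun D d hD e => (h.mono _ _ _ _ hD da' ((hJ' D d hD).1 e)).trans l3)
    (fun D d hD e => l4.trans (h.mono _ _ _ _ dc' hD ((hJ' D d hD).2 e)))
  obtain ⟨J, j3, j4, hJ⟩ := generic hR (mk_insert_lt hs (Sum.inl (J', l'))) hAC
  have g2 : Good (insert (Sum.inl (J, l)) (insert (Sum.inl (J', l')) s)) := g1.insert_dec
    (fun D d hD e => (g1.mono _ _ _ _ hD (Or.inr da) ((hJ D d hD).1 e)).trans l1)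
    (fun D d hD e => l2.trans (g1.mono _ _ _ _ (Or.inr dc) hD ((hJ D d hD).2 e)))
  have bs : ∀ K K', Bas (insert (Sum.inl (J, l)) (insert (Sum.inl (J', l')) s)) K K' →
      Bas s K K' := by
    rintro K K' (a | a | a)
    · cases a
    · cases a
    · exact a
  have g3 := g2.insert_bas (J := J) (J' := J') (Or.inl rfl) (Or.inr (Or.inl rfl)) ha
    (fun K K' hK e1 e2 => by
      obtain ⟨k, k', d1, d2, -⟩ := h.adm K K' (bs K K' hK)
      exact n1 K K' (bs K K' hK) ((hJ K k (Or.inr d1)).2 e1) ((hJ' K' k' d2).1 e2))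
    (fun K K' hK e1 e2 => by
      obtain ⟨k, k', d1, d2, -⟩ := h.adm K K' (bs K K' hK)
      exact n2 K K' (bs K K' hK) ((hJ K k (Or.inr d1)).1 e1) ((hJ' K' k' d2).2 e2))
  refine ⟨{Sum.inr (J, J'), Sum.inl (J, l), Sum.inl (J', l')}, toFinite _, ?_, J, J',
    Or.inr (Or.inl rfl), j3, j4, j1, j2⟩
  convert g3 using 1
  ext x
  simp only [mem_union, mem_insert_iff, mem_singleton_iff]
  tauto

/-- the task of an interval is done -/
def Done (s : Set (Item R)) (A C A' C' : Set ℕ) : Prop :=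
  ∃ K K', Bas s K K' ∧ ((AS C K ∧ AS K' A') ∨ (AS K A ∧ AS C' K') ∨
    (A ⊆ K ∧ K ⊆ C ∧ A' ⊆ K' ∧ K' ⊆ C'))

lemma Good.step_dec (hR : Reap) (hn : ∀ a b : R, ∃ r, a < r ∧ b < r) {s : Set (Item R)}
    (h : Good s) (hs : Cardinal.mk s < continuum)
    {A C A' C' : Set ℕ} {a c a' c' : R ⊕ R} (hAC : A ⊆ C) (hAC' : A' ⊆ C')
    (da : Dec s A a) (dc : Dec s C c) (da' : Dec s A' a') (dc' : Dec s C' c') :
    ∃ t : Set (Item R), t.Finite ∧ Good (s ∪ t) ∧ Done (s ∪ t) A C A' C' := by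
  by_cases hex : ∃ K K', Bas s K K' ∧ ((AS C K ∧ AS K' A') ∨ (AS K A ∧ AS C' K'))
  · obtain ⟨K, K', hK, hh⟩ := hex
    refine ⟨∅, finite_empty, by simpa using h, K, K', Or.inl hK, ?_⟩
    tauto
  have n1 : ∀ K K', Bas s K K' → AS C K → AS K' A' → False :=
    fun K K' hK e1 e2 => hex ⟨K, K', hK, Or.inl ⟨e1, e2⟩⟩
  have n2 : ∀ K K', Bas s K K' → AS K A → AS C' K' → False :=
    fun K K' hK e1 e2 => hex ⟨K, K', hK, Or.inr ⟨e1, e2⟩⟩
  have lac : Le a c := h.mono _ _ _ _ da dc (AS.of_subset hAC)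
  have lac' : Le a' c' := h.mono _ _ _ _ da' dc' (AS.of_subset hAC')
  obtain ⟨r0, de⟩ := h.emp
  obtain ⟨r1, du⟩ := h.unv
  have n3 : ∀ K K', Bas s K K' → AS univ K → AS K' ∅ → False := by
    intro K K' hK e1 e2
    obtain ⟨k, k', d1, d2, ad⟩ := h.adm K K' hK
    have q1 := h.mono _ _ _ _ du d1 e1
    have q2 := h.mono _ _ _ _ d2 de e2
    cases k <;> cases k' <;> simp only [Le, Adm] at q1 q2 ad
  have n4 : ∀ K K', Bas s K K' → AS K ∅ → AS univ K' → False := by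
    intro K K' hK e1 e2
    obtain ⟨k, k', d1, d2, ad⟩ := h.adm K K' hK
    have q1 := h.mono _ _ _ _ d1 de e1
    have q2 := h.mono _ _ _ _ du d2 e2
    cases k <;> cases k' <;> simp only [Le, Adm] at q1 q2 ad
  have mid : ∀ l l', Le a l → Le l c → Le a' l' → Le l' c' → Adm l l' →
      ∃ t : Set (Item R), t.Finite ∧ Good (s ∪ t) ∧ Done (s ∪ t) A C A' C' := by
    intro l l' l1 l2 l3 l4 ha
    obtain ⟨t, t1, t2, J, J', b, j⟩ := h.newbase hR hs hAC hAC' da dc da' dc' n1 n2 l1 l2 l3 l4 ha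
    exact ⟨t, t1, t2, J, J', b, Or.inr (Or.inr j)⟩
  rcases c with γ | γ
  · by_cases hadm : Adm (Sum.inl γ) a'
    · exact mid _ _ lac (Le.refl _) (Le.refl _) lac' hadm
    · obtain ⟨r, hr1, hr2⟩ := hn γ r0
      obtain ⟨t, t1, t2, J, J', b, j⟩ := h.newbase hR hs (subset_univ C) (empty_subset A')
        dc du de da' n3 (l := Sum.inl r) (l' := Sum.inl r0)
        (fun K K' hK e1 e2 => by
          obtain ⟨k, k', d1, d2, ad⟩ := h.adm K K' hK
          have q1 := h.mono _ _ _ _ d1 dc e1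
          have q2 := h.mono _ _ _ _ da' d2 e2
          apply hadm
          cases k <;> cases k' <;> cases a' <;> simp only [Le, Adm] at q1 q2 ad ⊢
          exact lt_of_le_of_lt q2 (lt_of_lt_of_le ad q1))
        hr1.le trivial (Le.refl _) (h.mono _ _ _ _ de da' (AS.of_subset (empty_subset _))) hr2
      exact ⟨t, t1, t2, J, J', b, Or.inl ⟨AS.of_subset j.1, AS.of_subset j.2.2.2⟩⟩
  · rcases a with α | α
    · rcases a' with β | β
      · obtain ⟨r, hr1, hr2⟩ := hn α β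
        exact mid (Sum.inl r) _ hr1.le trivial (Le.refl _) lac' hr2
      · obtain ⟨r, hr1, hr2⟩ := hn γ β
        exact mid (Sum.inr r) _ trivial hr1.le (Le.refl _) lac' hr2
    · by_cases hadm : Adm (Sum.inr α) c'
      · exact mid _ _ (Le.refl _) lac lac' (Le.refl _) hadm
      · obtain ⟨r, hr1, hr2⟩ := hn α r1
        obtain ⟨t, t1, t2, J, J', b, j⟩ := h.newbase hR hs (empty_subset A) (subset_univ C')
          de da dc' du (l := Sum.inr r) (l' := Sum.inr r1)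
          (fun K K' hK e1 e2 => by
            obtain ⟨k, k', d1, d2, ad⟩ := h.adm K K' hK
            have q1 := h.mono _ _ _ _ da d1 e1
            have q2 := h.mono _ _ _ _ d2 dc' e2
            apply hadm
            cases k <;> cases k' <;> cases c' <;> simp only [Le, Adm] at q1 q2 ad ⊢
            exact lt_of_le_of_lt q2 (lt_of_lt_of_le ad q1))
          n4 trivial hr1.le (h.mono _ _ _ _ dc' du (AS.of_subset (subset_univ _))) (Le.refl _) hr2
        exact ⟨t, t1, t2, J, J', b, Or.inr (Or.inl ⟨AS.of_subset j.2.1, AS.of_subset j.2.2.1⟩)⟩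

lemma Good.step [WellFoundedLT R] (hR : Reap)
    (hb : ∀ s : Set R, Cardinal.mk s < continuum → ∃ r, ∀ x ∈ s, x < r)
    {s : Set (Item R)} (h : Good s) (hs : Cardinal.mk s < continuum) (A C A' C' : Set ℕ) :
    ∃ t : Set (Item R), t.Finite ∧ Good (s ∪ t) ∧
      ((∃ l, Dec (s ∪ t) A l) ∧ (A ⊆ C → A' ⊆ C' → Done (s ∪ t) A C A' C')) := by
  have hn : ∀ a b : R, ∃ r, a < r ∧ b < r := by
    intro a b
    obtain ⟨r, hr⟩ := hb {a, b} ((toFinite _).lt_aleph0.trans aleph0_lt_continuum)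
    exact ⟨r, hr a (by simp), hr b (by simp)⟩
  obtain ⟨a, g1⟩ := h.decide hb hs A
  have c1 := mk_insert_lt hs (Sum.inl (A, a))
  by_cases hh : A ⊆ C ∧ A' ⊆ C'
  · obtain ⟨c, g2⟩ := g1.decide hb c1 C
    have c2 := mk_insert_lt c1 (Sum.inl (C, c))
    obtain ⟨a', g3⟩ := g2.decide hb c2 A'
    have c3 := mk_insert_lt c2 (Sum.inl (A', a'))
    obtain ⟨c', g4⟩ := g3.decide hb c3 C'
    have c4 := mk_insert_lt c3 (Sum.inl (C', c'))
    obtain ⟨t, t1, t2, t3⟩ := g4.step_dec hR hn c4 hh.1 hh.2 (a := a) (c := c) (a' := a') (c' := c')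
      (Or.inr (Or.inr (Or.inr (Or.inl rfl)))) (Or.inr (Or.inr (Or.inl rfl)))
      (Or.inr (Or.inl rfl)) (Or.inl rfl)
    have e : s ∪ ({Sum.inl (C', c'), Sum.inl (A', a'), Sum.inl (C, c), Sum.inl (A, a)} ∪ t) =
        insert (Sum.inl (C', c')) (insert (Sum.inl (A', a')) (insert (Sum.inl (C, c))
          (insert (Sum.inl (A, a)) s))) ∪ t := by
      ext x
      simp only [mem_union, mem_insert_iff, mem_singleton_iff]
      tauto
    refine ⟨{Sum.inl (C', c'), Sum.inl (A', a'), Sum.inl (C, c), Sum.inl (A, a)} ∪ t,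
      (toFinite _).union t1, e ▸ t2, ⟨a, ?_⟩, fun _ _ => e ▸ t3⟩
    exact Or.inr (Or.inl (by simp))
  · refine ⟨{Sum.inl (A, a)}, toFinite _, ?_, ⟨a, Or.inr rfl⟩, fun x y => absurd ⟨x, y⟩ hh⟩
    rw [union_singleton]
    exact g1

theorem exists_state [WellFoundedLT R] (hR : Reap)
    (hb : ∀ s : Set R, Cardinal.mk s < continuum → ∃ r, ∀ x ∈ s, x < r) :
    ∃ s : Set (Item R), Good s ∧ (∀ A, ∃ l, Dec s A l) ∧
      ∀ A C A' C', A ⊆ C → A' ⊆ C' → Done s A C A' C' := by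
  obtain ⟨r0, -⟩ := hb ∅ (by simpa using continuum_pos)
  have hc : Cardinal.mk (continuum.{0}.ord.ToType) =
      Cardinal.mk (Set ℕ × Set ℕ × Set ℕ × Set ℕ) := by
    simp
  obtain ⟨e⟩ := Cardinal.eq.1 hc
  obtain ⟨s, hs, hd⟩ := rec_construct (ι := continuum.{0}.ord.ToType)
    (fun i => by simpa using mk_Iio_lt i) Good _ (Good.init r0) (toFinite _) Good.sUnion
    (fun i s => (∃ l, Dec s (e i).1 l) ∧ ((e i).1 ⊆ (e i).2.1 → (e i).2.2.1 ⊆ (e i).2.2.2 →
      Done s (e i).1 (e i).2.1 (e i).2.2.1 (e i).2.2.2))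
    (by
      rintro i s s' hss ⟨⟨l, hl⟩, h2⟩
      refine ⟨⟨l, hss hl⟩, fun a b => ?_⟩
      obtain ⟨K, K', hK, hh⟩ := h2 a b
      exact ⟨K, K', hss hK, hh⟩)
    (fun s hs hcs i => hs.step hR hb hcs _ _ _ _)
  refine ⟨s, hs, fun A => ?_, fun A C A' C' => ?_⟩
  · have := (hd (e.symm (A, A, A, A))).1
    simpa using this
  · have := (hd (e.symm (A, C, A', C'))).2
    simpa using this

end Levels

lemma exists_rank : ∃ (R : Type) (_ : LinearOrder R) (_ : WellFoundedLT R),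
    ∀ s : Set R, Cardinal.mk s < continuum → ∃ r, ∀ x ∈ s, x < r := by
  refine ⟨(Order.succ continuum.{0}).ord.ToType, inferInstance, inferInstance, fun s hs => ?_⟩
  by_contra hcon
  push Not at hcon
  have hcov : (univ : Set (Order.succ continuum.{0}).ord.ToType) ⊆ ⋃ x : s, (Iio x.1 ∪ {x.1}) := by
    intro r _
    obtain ⟨x, hx, hrx⟩ := hcon r
    refine mem_iUnion.2 ⟨⟨x, hx⟩, ?_⟩
    rcases hrx.lt_or_eq with h | h
    · exact Or.inl h
    · exact Or.inr h
  have h1 := (mk_le_mk_of_subset hcov).trans (mk_iUnion_le _)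
  rw [mk_univ, mk_ord_toType] at h1
  have h2 : (⨆ x : s, Cardinal.mk (Iio x.1 ∪ {x.1} : Set _)) ≤ continuum := by
    refine ciSup_le' fun x => ?_
    refine (mk_union_le _ _).trans ?_
    have a : Cardinal.mk (Iio x.1) < Order.succ continuum.{0} := by simpa using mk_Iio_lt x.1
    rw [mk_singleton]
    calc _ ≤ continuum + continuum := add_le_add (Order.lt_succ_iff.1 a)
            (one_lt_aleph0.trans aleph0_lt_continuum).le
      _ = continuum := continuum_add_self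
  have h3 : Order.succ continuum.{0} ≤ continuum * continuum :=
    h1.trans (mul_le_mul' hs.le h2)
  rw [continuum_mul_self] at h3
  exact absurd h3 (not_le.2 (Order.lt_succ _))

end Vale.Agent.P068
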