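import Mathlib

open Set

namespace Vale.Agent.P068

open scoped Matroid

/-- A packing/covering partition for a family of matroids whose common ground set is the
whole type. The contraction onto `C` is the dual of the restriction of the dual to `C`. -/
def HasPackingCoveringPartition {α Θ : Type} (M : Θ → Matroid α) : Prop :=
  ∃ P C : Set α, Disjoint P C ∧ P ∪ C = univ ∧ ∃ S I : Θ → Set α,
    (∀ i, S i ⊆ P) ∧ (∀ i, I i ⊆ C) ∧ (∀ i j, i ≠ j → Disjoint (S i) (S j)) ∧
    (∀ i, ((M i) ↾ P).closure (S i) = P) ∧ (∀ i, ((M i)✶ ↾ C)✶.Indep (I i)) ∧ (⋃ i, I i) = C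

/-- The pair satisfies intersection. -/
def SatisfiesIntersection {α : Type} (M N : Matroid α) : Prop :=
  ∃ JM JN : Set α, Disjoint JM JN ∧ M.Indep (JM ∪ JN) ∧ N.Indep (JM ∪ JN) ∧
    M.closure JM ∪ N.closure JN = univ

/-- The continuum hypothesis. -/
def ContinuumHypothesis : Prop := Cardinal.continuum.{0} = Cardinal.aleph 1

/-- Martin's axiom for countable posets, in the form cov(meagre) = continuum: fewer than
continuum many dense open subsets of Cantor space have a common point. -/
def CovMeagreEqContinuum : Prop :=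
  ∀ 𝓤 : Set (Set (ℕ → Bool)), Cardinal.mk 𝓤 < Cardinal.continuum →
    (∀ U ∈ 𝓤, IsOpen U ∧ Dense U) → (⋂₀ 𝓤).Nonempty

/-- The reaping number equals the continuum: fewer than continuum many infinite sets of
naturals are all split by one set. -/
def ReapingEqContinuum : Prop :=
  ∀ 𝓕 : Set (Set ℕ), Cardinal.mk 𝓕 < Cardinal.continuum → (∀ A ∈ 𝓕, A.Infinite) →
    ∃ X : Set ℕ, ∀ A ∈ 𝓕, (A ∩ X).Infinite ∧ (A \ X).Infinite

end Vale.Agent.P068
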