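import Vale.Agent.P068.Build
import Vale.Agent.P068.Defs

open Set Cardinal

namespace Vale.Agent.P068

open scoped Matroid

/-- the subset of two copies of the naturals given by `J` and the complement of `J'` -/
def enc (J J' : Set ℕ) : Set (ℕ ⊕ ℕ) := {x | Sum.elim (fun n => n ∈ J) (fun n => n ∉ J') x}

lemma enc_as {J J' K K' : Set ℕ} : AS (enc J J') (enc K K') ↔ AS J K ∧ AS K' J' := by
  unfold AS
  constructor
  · intro h
    refine ⟨(h.preimage (f := Sum.inl) Sum.inl_injective.injOn).subset fun n hn => hn,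
      (h.preimage (f := Sum.inr) Sum.inr_injective.injOn).subset fun n hn => ⟨hn.2, ?_⟩⟩
    exact fun h => h hn.1
  · rintro ⟨h1, h2⟩
    refine ((h1.image Sum.inl).union (h2.image Sum.inr)).subset ?_
    rintro (n | n) hn
    · exact Or.inl ⟨n, hn, rfl⟩
    · refine Or.inr ⟨n, ⟨?_, hn.1⟩, rfl⟩
      by_contra h
      exact hn.2 h

lemma enc_subset {J J' K K' : Set ℕ} : enc J J' ⊆ enc K K' ↔ J ⊆ K ∧ K' ⊆ J' := by
  constructor
  · intro h
    refine ⟨fun n hn => h (a := Sum.inl n) hn, fun n hn => ?_⟩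
    by_contra hc
    exact h (a := Sum.inr n) hc hn
  · rintro ⟨h1, h2⟩ (n | n) hn
    · exact h1 hn
    · exact fun h => hn (h2 h)

lemma enc_surj (Z : Set (ℕ ⊕ ℕ)) : ∃ J J', Z = enc J J' := by
  refine ⟨Sum.inl ⁻¹' Z, (Sum.inr ⁻¹' Z)ᶜ, ?_⟩
  ext (n | n) <;> simp [enc]

theorem exists_W (hR : Reap) : ∃ (R : Type) (_ : LinearOrder R) (_ : WellFoundedLT R)
    (p : Set ℕ → R ⊕ R) (W : UFam (ℕ ⊕ ℕ)), (∃ r, p ∅ = Sum.inl r) ∧ (∃ r, p Set.univ = Sum.inr r) ∧
    (∀ J J' a, W.spn (enc J J') → p J = Sum.inl a → ∃ b < a, p J' = Sum.inl b) ∧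
    (∀ J J' a, W.ind (enc J J') → p J = Sum.inr a → ∃ b < a, p J' = Sum.inr b) := by
  obtain ⟨R, i1, i2, hb⟩ := exists_rank
  obtain ⟨s, hs, hdec, hdone⟩ := exists_state hR hb
  choose p hp using hdec
  have hpe : ∀ A l, Dec s A l → p A = l := fun A l h =>
    (hs.mono _ _ _ _ (hp A) h (AS.refl _)).antisymm (hs.mono _ _ _ _ h (hp A) (AS.refl _))
  have hpm : ∀ A B, AS A B → Le (p A) (p B) := fun A B h => hs.mono _ _ _ _ (hp A) (hp B) h
  have hadm : ∀ K K', Bas s K K' → Adm (p K) (p K') := by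
    intro K K' h
    obtain ⟨l, l', d1, d2, a⟩ := hs.adm K K' h
    rwa [hpe _ _ d1, hpe _ _ d2]
  refine ⟨R, i1, i2, p, mkUFam {Z | ∃ K K', Bas s K K' ∧ Z = enc K K'} ?_ ?_, ?_, ?_, ?_, ?_⟩
  · rintro _ ⟨J, J', h, rfl⟩ _ ⟨K, K', h', rfl⟩ ha
    rw [enc_as] at ha
    obtain ⟨rfl, rfl⟩ := hs.anti _ _ _ _ h h' ha.1 ha.2
    rfl
  · intro L U hLU
    obtain ⟨A, C', rfl⟩ := enc_surj L
    obtain ⟨C, A', rfl⟩ := enc_surj U
    rw [enc_subset] at hLU
    obtain ⟨K, K', hK, h⟩ := hdone A C A' C' hLU.1 hLU.2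
    refine ⟨_, ⟨K, K', hK, rfl⟩, ?_⟩
    rw [enc_as, enc_as, enc_subset, enc_subset]
    tauto
  · obtain ⟨r, hr⟩ := hs.emp
    exact ⟨r, hpe _ _ hr⟩
  · obtain ⟨r, hr⟩ := hs.unv
    exact ⟨r, hpe _ _ hr⟩
  · rintro J J' a ⟨X, ⟨_, ⟨K, K', hK, rfl⟩, hX⟩, hXJ⟩ ha
    have h := enc_as.1 (hX.2.1.trans (AS.of_subset hXJ))
    have q1 := hpm _ _ h.1
    have q2 := hpm _ _ h.2
    have q3 := hadm _ _ hK
    rw [ha] at q1
    generalize p K = k at *
    generalize p K' = k' at *
    generalize p J' = j' at *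
    cases k <;> cases k' <;> cases j' <;> simp only [Le, Adm] at q1 q2 q3
    exact ⟨_, lt_of_le_of_lt q2 (lt_of_lt_of_le q3 q1), rfl⟩
  · rintro J J' a ⟨X, ⟨_, ⟨K, K', hK, rfl⟩, hX⟩, hXJ⟩ ha
    have h := enc_as.1 ((AS.of_subset hXJ).trans hX.1)
    have q1 := hpm _ _ h.1
    have q2 := hpm _ _ h.2
    have q3 := hadm _ _ hK
    rw [ha] at q1
    generalize p K = k at *
    generalize p K' = k' at *
    generalize p J' = j' at *
    cases k <;> cases k' <;> cases j' <;> simp only [Le, Adm] at q1 q2 q3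
    exact ⟨_, lt_of_le_of_lt q2 (lt_of_lt_of_le q3 q1), rfl⟩

lemma swap_enc (J J' : Set ℕ) : ((Equiv.sumComm ℕ ℕ) ⁻¹' (enc J J'))ᶜ = enc J' J := by
  ext (n | n) <;> simp [enc]

/-- The vertex families along the double ray admit no good orientation. -/
theorem exists_V (hR : Reap) : ∃ V : ℤ → UFam (ℕ ⊕ ℕ), ∀ (J : ℤ → Set ℕ) (t : ℤ → Prop),
    (∀ k, t (k + 1) → (V (k + 1)).spn (enc (J k) (J (k + 1)))) →
    (∀ k, ¬ t (k + 1) → (V (k + 1)).ind (enc (J k) (J (k + 1)))) →
    (∀ k, t k → ¬ t (k + 1) → J k = Set.univ) → (∀ k, ¬ t k → t (k + 1) → J k = ∅) → False := by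
  obtain ⟨R, i1, i2, p, W, ⟨r0, h0⟩, ⟨r1, h1⟩, hs, hi⟩ := exists_W hR
  refine ⟨fun k => if 1 ≤ k then W else W.dual.comap (Equiv.sumComm ℕ ℕ), ?_⟩
  intro J t hP hC e1 e2
  have R1 : ∀ a k, 0 ≤ k → p (J k) = Sum.inl a → t (k + 1) → False := by
    intro a
    induction a using WellFoundedLT.induction with
    | ind a ih =>
      intro k hk ha ht
      have := hP k ht
      simp only [show 1 ≤ k + 1 by omega, if_true] at this
      obtain ⟨b, hb, e⟩ := hs _ _ _ this ha
      by_cases h2 : t (k + 1 + 1)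
      · exact ih b hb (k + 1) (by omega) e h2
      · rw [e1 _ ht h2, h1] at e; cases e
  have R2 : ∀ a k, 0 ≤ k → p (J k) = Sum.inr a → ¬ t (k + 1) → False := by
    intro a
    induction a using WellFoundedLT.induction with
    | ind a ih =>
      intro k hk ha ht
      have := hC k ht
      simp only [show 1 ≤ k + 1 by omega, if_true] at this
      obtain ⟨b, hb, e⟩ := hi _ _ _ this ha
      by_cases h2 : t (k + 1 + 1)
      · rw [e2 _ ht h2, h0] at e; cases e
      · exact ih b hb (k + 1) (by omega) e h2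
  have L1 : ∀ a k, k + 1 ≤ 0 → p (J (k + 1)) = Sum.inl a → ¬ t (k + 1) → False := by
    intro a
    induction a using WellFoundedLT.induction with
    | ind a ih =>
      intro k hk ha ht
      have := hC k ht
      simp only [show ¬ 1 ≤ k + 1 by omega, if_false] at this
      have := UFam.dual_ind.1 (UFam.comap_ind this)
      rw [swap_enc] at this
      obtain ⟨b, hb, e⟩ := hs _ _ _ this ha
      by_cases h2 : t k
      · rw [e1 _ h2 ht, h1] at e; cases e
      · exact ih b hb (k - 1) (by omega) (by simpa using e) (by simpa using h2)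
  have L2 : ∀ a k, k + 1 ≤ 0 → p (J (k + 1)) = Sum.inr a → t (k + 1) → False := by
    intro a
    induction a using WellFoundedLT.induction with
    | ind a ih =>
      intro k hk ha ht
      have := hP k ht
      simp only [show ¬ 1 ≤ k + 1 by omega, if_false] at this
      have := UFam.dual_spn.1 (UFam.comap_spn this)
      rw [swap_enc] at this
      obtain ⟨b, hb, e⟩ := hi _ _ _ this ha
      by_cases h2 : t k
      · exact ih b hb (k - 1) (by omega) (by simpa using e) (by simpa using h2)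
      · rw [e2 _ h2 ht, h0] at e; cases e
  rcases hJ : p (J 0) with a | a
  · have a1 : ¬ t (0 + 1) := fun h => R1 a 0 le_rfl hJ h
    have a2 : t 0 := by
      by_contra h
      exact L1 a (-1) (by omega) (by simpa using hJ) (by simpa using h)
    rw [e1 0 a2 a1, h1] at hJ; cases hJ
  · have a1 : t (0 + 1) := by
      by_contra h
      exact R2 a 0 le_rfl hJ h
    have a2 : ¬ t 0 := fun h => L2 a (-1) (by omega) (by simpa using hJ) (by simpa using h)
    rw [e2 0 a2 a1, h0] at hJ; cases hJ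

/-- the elements at vertex `k` -/
def emb (k : ℤ) : ℕ ⊕ ℕ → ℤ × ℕ := Sum.elim (fun n => (k - 1, n)) (fun n => (k, n))

lemma emb_inj {k k' : ℤ} (h : k % 2 = k' % 2) {x y : ℕ ⊕ ℕ} (e : emb k x = emb k' y) :
    k = k' ∧ x = y := by
  rcases x with x | x <;> rcases y with y | y <;> simp only [emb, Sum.elim_inl, Sum.elim_inr,
    Prod.mk.injEq] at e
  · exact ⟨by omega, by rw [e.2]⟩
  · omega
  · omega
  · exact ⟨by omega, by rw [e.2]⟩

lemma exists_sum (V : ℤ → UFam (ℕ ⊕ ℕ)) (b : ℤ) : ∃ M : Matroid (ℤ × ℕ), M.E = Set.univ ∧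
    ∀ I, M.Indep I ↔ ∀ k, k % 2 = b % 2 → (V k).ind (emb k ⁻¹' I) := by
  let f : ℤ × (ℕ ⊕ ℕ) → ℤ × ℕ := fun q => emb (2 * q.1 + b) q.2
  have hf : Function.Bijective f := by
    constructor
    · rintro ⟨j, x⟩ ⟨j', y⟩ e
      obtain ⟨e1, e2⟩ := emb_inj (by simp only; omega) e
      simp only at e1 e2
      rw [e2, show j = j' by omega]
    · rintro ⟨k, n⟩
      by_cases h : k % 2 = b % 2
      · refine ⟨((k - b) / 2, Sum.inr n), ?_⟩
        simp only [f, emb, Sum.elim_inr, Prod.mk.injEq, and_true]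
        omega
      · refine ⟨((k + 1 - b) / 2, Sum.inl n), ?_⟩
        simp only [f, emb, Sum.elim_inl, Prod.mk.injEq, and_true]
        omega
  refine ⟨(Matroid.sum' (fun j : ℤ => (V (2 * j + b)).toMatroid)).mapEquiv (Equiv.ofBijective f hf),
    ?_, fun I => ?_⟩
  · rw [Matroid.mapEquiv_ground_eq, eq_univ_iff_forall]
    intro e
    obtain ⟨q, rfl⟩ := hf.2 e
    refine ⟨q, ?_, rfl⟩
    rw [Matroid.sum'_ground_eq]
    exact mem_iUnion.2 ⟨q.1, q.2, trivial, rfl⟩
  · rw [Matroid.mapEquiv_indep_iff, Matroid.sum'_indep_iff, Equiv.image_eq_preimage_symm]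
    simp only [Equiv.symm_symm, UFam.toMatroid_indep]
    constructor
    · intro h k hk
      have := h ((k - b) / 2)
      have e : 2 * ((k - b) / 2) + b = k := by omega
      have e2 : Prod.mk ((k - b) / 2) ⁻¹' (Equiv.ofBijective f hf ⁻¹' I) = emb k ⁻¹' I := by
        ext x
        simp only [mem_preimage, Equiv.ofBijective_apply, f, e]
      rwa [e2, e] at this
    · intro h j
      exact h (2 * j + b) (by omega)

section Sum
variable {V : ℤ → UFam (ℕ ⊕ ℕ)} {b : ℤ} {M : Matroid (ℤ × ℕ)}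

lemma trace_closure (_hE : M.E = Set.univ)
    (hM : ∀ I, M.Indep I ↔ ∀ k, k % 2 = b % 2 → (V k).ind (emb k ⁻¹' I))
    {T : Set (ℤ × ℕ)} (hT : M.Indep T) {k : ℤ} (hk : k % 2 = b % 2) {x : ℕ ⊕ ℕ}
    (hx : emb k x ∈ M.closure T) :
    x ∈ emb k ⁻¹' T ∨ ¬ (V k).ind (insert x (emb k ⁻¹' T)) := by
  rw [hT.mem_closure_iff] at hx
  rcases hx with hx | hx
  · right
    intro hi
    apply hx.not_indep
    rw [hM]
    intro k' hk'
    by_cases e : k' = k
    · subst e
      refine hi.mono ?_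
      rintro y (hy | hy)
      · exact Or.inl (emb_inj rfl hy).2
      · exact Or.inr hy
    · refine ((hM T).1 hT k' hk').mono ?_
      rintro y (hy | hy)
      · exact absurd (emb_inj (hk'.trans hk.symm) hy).1 e
      · exact hy
  · exact Or.inl hx

lemma trace_basis (hE : M.E = Set.univ)
    (hM : ∀ I, M.Indep I ↔ ∀ k, k % 2 = b % 2 → (V k).ind (emb k ⁻¹' I))
    {T P : Set (ℤ × ℕ)} (hT : M.Indep T) (hTP : T ⊆ P) (hP : P ⊆ M.closure T) {k : ℤ}
    (hk : k % 2 = b % 2) :
    (¬ (V k).ind (emb k ⁻¹' P) → (V k).spn (emb k ⁻¹' T)) ∧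
    ((V k).ind (emb k ⁻¹' P) → emb k ⁻¹' P ⊆ emb k ⁻¹' T) := by
  have hi := (hM T).1 hT k hk
  constructor
  · intro h
    by_contra hs
    refine h (hi.mono fun x hx => ?_)
    rcases trace_closure hE hM hT hk (hP hx) with h | h
    · exact h
    · exact absurd (UFam.spn_of_insert hi h) hs
  · intro h x hx
    rcases trace_closure hE hM hT hk (hP hx) with h' | h'
    · exact h'
    · exact absurd (h.mono (insert_subset hx (preimage_mono hTP))) h'

lemma pack_side (hE : M.E = Set.univ)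
    (hM : ∀ I, M.Indep I ↔ ∀ k, k % 2 = b % 2 → (V k).ind (emb k ⁻¹' I))
    {S P : Set (ℤ × ℕ)} (hSP : S ⊆ P) (hP : (M ↾ P).closure S = P) {k : ℤ}
    (hk : k % 2 = b % 2) :
    (¬ (V k).ind (emb k ⁻¹' P) → (V k).spn (emb k ⁻¹' S)) ∧
    ((V k).ind (emb k ⁻¹' P) → emb k ⁻¹' P ⊆ emb k ⁻¹' S) := by
  rw [M.restrict_closure_eq hSP (hE ▸ subset_univ _), inter_eq_right] at hP
  obtain ⟨T, hT⟩ := M.exists_isBasis S (hE ▸ subset_univ _)
  rw [← hT.closure_eq_closure] at hP
  obtain ⟨h1, h2⟩ := trace_basis hE hM hT.indep (hT.subset.trans hSP) hP hk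
  exact ⟨fun h => (h1 h).mono (preimage_mono hT.subset),
    fun h => (h2 h).trans (preimage_mono hT.subset)⟩

lemma cover_side (hE : M.E = Set.univ)
    (hM : ∀ I, M.Indep I ↔ ∀ k, k % 2 = b % 2 → (V k).ind (emb k ⁻¹' I))
    {I P C : Set (ℤ × ℕ)} (hd : Disjoint P C) (hu : P ∪ C = Set.univ)
    (hI : (M✶ ↾ C)✶.Indep I) {k : ℤ} (hk : k % 2 = b % 2) :
    (¬ (V k).ind (emb k ⁻¹' P) → emb k ⁻¹' I = ∅) ∧
    ((V k).ind (emb k ⁻¹' P) → (V k).ind (emb k ⁻¹' (I ∪ P))) := by
  have hC : C = M✶.E \ P := by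
    rw [Matroid.dual_ground, hE]
    ext x
    constructor
    · intro hx
      exact ⟨trivial, fun h => disjoint_left.1 hd h hx⟩
    · intro hx
      have : x ∈ P ∪ C := hu ▸ trivial
      exact this.resolve_left hx.2
  rw [hC] at hI
  change (M ／ P).Indep I at hI
  obtain ⟨T, hT⟩ := M.exists_isBasis P (hE ▸ subset_univ _)
  rw [hT.contract_indep_iff] at hI
  obtain ⟨h1, h2⟩ := trace_basis hE hM hT.indep hT.subset hT.subset_closure hk
  have hi := (hM _).1 hI.1 k hk
  constructor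
  · intro h
    have := UFam.eq_of_spn_ind (h1 h) hi (preimage_mono subset_union_right)
    rw [eq_empty_iff_forall_notMem]
    intro x hx
    exact disjoint_left.1 hI.2 (hT.subset (this (Or.inl hx))) hx
  · intro h
    refine hi.mono ?_
    rintro x (hx | hx)
    · exact Or.inl hx
    · exact Or.inr (h2 h hx)

end Sum

theorem not_pc (hR : Reap) : ∃ M : Fin 2 → Matroid (ℤ × ℕ), (∀ i, (M i).E = Set.univ) ∧
    ¬ HasPackingCoveringPartition M := by
  obtain ⟨V, hV⟩ := exists_V hR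
  choose M hE hM using exists_sum V
  refine ⟨fun i => M (i : ℕ), fun i => hE _, ?_⟩
  rintro ⟨P, C, hd, hu, S, I, hSP, hIC, hSS, hS, hI, hcov⟩
  let par : ℤ → Fin 2 := fun k => ⟨(k % 2).toNat, by omega⟩
  have hpar : ∀ k, k % 2 = ((par k : ℕ) : ℤ) % 2 := by
    intro k; simp only [par]; omega
  have hne : ∀ k, par k ≠ par (k + 1) := by
    intro k h
    have := congrArg Fin.val h
    simp only [par] at this
    omega
  have hcov' : ∀ k e, e ∈ C → e ∈ I (par k) ∨ e ∈ I (par (k + 1)) := by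
    intro k e he
    rw [← hcov] at he
    obtain ⟨i, hi⟩ := mem_iUnion.1 he
    have := hne k
    by_cases h : i = par k
    · exact Or.inl (h ▸ hi)
    · have : i = par (k + 1) := by omega
      exact Or.inr (this ▸ hi)
  have hPC : ∀ e, e ∈ P ∨ e ∈ C := fun e => (hu ▸ trivial : e ∈ P ∪ C)
  have A := fun k => pack_side (hE _) (hM _) (hSP (par k)) (hS (par k)) (hpar k)
  have B := fun k => cover_side (hE _) (hM _) hd hu (hI (par k)) (hpar k)
  refine hV (fun k => {n | (k, n) ∈ S (par (k + 1)) ∨ (k, n) ∈ I (par (k + 1))})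
    (fun k => ¬ (V k).ind (emb k ⁻¹' P)) ?_ ?_ ?_ ?_
  · intro k ht
    refine ((A _).1 ht).mono ?_
    rintro (n | n) hn
    · simp only [emb, mem_preimage, Sum.elim_inl, add_sub_cancel_right] at hn
      exact Or.inl hn
    · simp only [emb, mem_preimage, Sum.elim_inr] at hn
      rintro (h | h)
      · exact disjoint_left.1 (hSS _ _ (hne _)) hn h
      · exact disjoint_left.1 hd (hSP _ hn) (hIC _ h)
  · intro k ht
    refine ((B _).2 (not_not.1 ht)).mono ?_
    rintro (n | n) hn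
    · simp only [emb, mem_preimage, Sum.elim_inl, add_sub_cancel_right]
      rcases hn with h | h
      · exact Or.inr (hSP _ h)
      · exact Or.inl h
    · simp only [emb, mem_preimage, Sum.elim_inr]
      rcases hPC (k + 1, n) with h | h
      · exact Or.inr h
      · rcases hcov' (k + 1) _ h with h | h
        · exact Or.inl h
        · exact absurd (Or.inr h) hn
  · intro k h1 h2
    rw [eq_univ_iff_forall]
    intro n
    rcases hPC (k, n) with h | h
    · have := (A _).2 (not_not.1 h2)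
        (show Sum.inl n ∈ emb (k + 1) ⁻¹' P by simpa [emb] using h)
      exact Or.inl (by simpa [emb] using this)
    · rcases hcov' k _ h with h | h
      · have := (B _).1 h1
        exact absurd (show Sum.inr n ∈ emb k ⁻¹' I (par k) from h) (this ▸ notMem_empty _)
      · exact Or.inr h
  · intro k h1 h2
    rw [eq_empty_iff_forall_notMem]
    rintro n (h | h)
    · have := (A _).2 (not_not.1 h1) (show Sum.inr n ∈ emb k ⁻¹' P from hSP _ h)
      exact disjoint_left.1 (hSS _ _ (hne _)) this h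
    · have := (B _).1 h2
      exact absurd (show Sum.inl n ∈ emb (k + 1) ⁻¹' I (par (k + 1)) by simpa [emb] using h)
        (this ▸ notMem_empty _)

theorem not_inter (hR : Reap) : ∃ M N : Matroid (ℤ × ℕ), M.E = Set.univ ∧ N.E = Set.univ ∧
    ¬ SatisfiesIntersection M N := by
  obtain ⟨V, hV⟩ := exists_V hR
  obtain ⟨M, hE, hM⟩ := exists_sum V 0
  obtain ⟨N, hE', hN⟩ := exists_sum (fun k => (V k).dual) 1
  refine ⟨M, N, hE, hE', ?_⟩
  rintro ⟨JM, JN, hd, h1, h2, hu⟩
  have hcl : ∀ e, e ∈ M.closure JM ∨ e ∈ N.closure JN := fun e =>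
    (hu ▸ mem_univ e : e ∈ M.closure JM ∪ N.closure JN)
  have iM := h1.subset subset_union_left
  have iN := h2.subset subset_union_right
  have cM : ∀ k, k % 2 = 0 % 2 → ¬ (V k).spn (emb k ⁻¹' JM) → ∀ x, emb k x ∈ M.closure JM →
      emb k x ∈ JM := fun k hk hs x hx =>
    (trace_closure hE hM iM hk hx).resolve_right fun h =>
      hs (UFam.spn_of_insert ((hM _).1 iM k hk) h)
  have cN : ∀ k, k % 2 = 1 % 2 → ¬ (V k).dual.spn (emb k ⁻¹' JN) → ∀ x, emb k x ∈ N.closure JN →
      emb k x ∈ JN := fun k hk hs x hx =>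
    (trace_closure hE' hN iN hk hx).resolve_right fun h =>
      hs (UFam.spn_of_insert ((hN _).1 iN k hk) h)
  have fM : ∀ k, k % 2 = 0 % 2 → (V k).spn (emb k ⁻¹' JM) → ∀ x, emb k x ∈ JM ∪ JN →
      emb k x ∈ JM := fun k hk hs x hx =>
    UFam.eq_of_spn_ind hs ((hM _).1 h1 k hk) (preimage_mono subset_union_left) hx
  have fN : ∀ k, k % 2 = 1 % 2 → (V k).dual.spn (emb k ⁻¹' JN) → ∀ x, emb k x ∈ JM ∪ JN →
      emb k x ∈ JN := fun k hk hs x hx =>
    UFam.eq_of_spn_ind hs ((hN _).1 h2 k hk) (preimage_mono subset_union_right) hx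
  let J : ℤ → Set ℕ := fun k => {n | k % 2 = 1 ↔ (k, n) ∈ JM ∪ JN}
  have e0 : ∀ k, k % 2 = 1 → enc (J k) (J (k + 1)) = emb (k + 1) ⁻¹' (JM ∪ JN) := by
    intro k hk
    have : ¬ (k + 1) % 2 = 1 := by omega
    ext (n | n) <;> simp [enc, J, emb, hk, this, or_iff_not_imp_left]
  have e1 : ∀ k, k % 2 = 0 → enc (J k) (J (k + 1)) = (emb (k + 1) ⁻¹' (JM ∪ JN))ᶜ := by
    intro k hk
    have : (k + 1) % 2 = 1 := by omega
    ext (n | n) <;> simp [enc, J, emb, hk, this]
  refine hV J (fun k => if k % 2 = 0 then (V k).spn (emb k ⁻¹' JM)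
    else ¬ (V k).dual.spn (emb k ⁻¹' JN)) ?_ ?_ ?_ ?_
  · intro k ht
    by_cases hk : k % 2 = 1
    · rw [if_pos (by omega)] at ht
      rw [e0 k hk]
      exact ht.mono (preimage_mono subset_union_left)
    · rw [e1 k (by omega)]
      exact UFam.dual_ind.1 ((hN _).1 h2 (k + 1) (by omega))
  · intro k ht
    by_cases hk : k % 2 = 1
    · rw [e0 k hk]
      exact (hM _).1 h1 (k + 1) (by omega)
    · rw [if_neg (by omega), not_not] at ht
      rw [e1 k (by omega)]
      exact UFam.dual_spn.1 (ht.mono (preimage_mono subset_union_right))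
  · intro k t1 t2
    rw [eq_univ_iff_forall]
    intro n
    by_cases hk : k % 2 = 1
    · rw [if_neg (by omega)] at t1
      rw [if_pos (by omega)] at t2
      refine ⟨fun _ => ?_, fun _ => hk⟩
      rcases hcl (k, n) with h | h
      · have := cM (k + 1) (by omega) t2 (Sum.inl n) (by simpa [emb] using h)
        exact Or.inl (by simpa [emb] using this)
      · exact Or.inr (cN k (by omega) t1 (Sum.inr n) h)
    · rw [if_pos (by omega)] at t1
      rw [if_neg (by omega), not_not] at t2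
      refine ⟨fun h => absurd h hk, fun h => ?_⟩
      have a1 := fM k (by omega) t1 (Sum.inr n) h
      have a2 := fN (k + 1) (by omega) t2 (Sum.inl n) (by simpa [emb] using h)
      exact (disjoint_left.1 hd a1 (by simpa [emb] using a2)).elim
  · intro k t1 t2
    rw [eq_empty_iff_forall_notMem]
    intro n hn
    by_cases hk : k % 2 = 1
    · rw [if_neg (by omega), not_not] at t1
      rw [if_pos (by omega)] at t2
      have h : (k, n) ∈ JM ∪ JN := hn.1 hk
      have a1 := fN k (by omega) t1 (Sum.inr n) h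
      have a2 := fM (k + 1) (by omega) t2 (Sum.inl n) (by simpa [emb] using h)
      exact disjoint_left.1 hd (by simpa [emb] using a2) a1
    · rw [if_pos (by omega)] at t1
      rw [if_neg (by omega)] at t2
      refine hk (hn.2 ?_)
      rcases hcl (k, n) with h | h
      · exact Or.inl (cM k (by omega) t1 (Sum.inr n) h)
      · have := cN (k + 1) (by omega) t2 (Sum.inl n) (by simpa [emb] using h)
        exact Or.inr (by simpa [emb] using this)

lemma cov_of_ch (h : ContinuumHypothesis) : CovMeagreEqContinuum := by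
  intro 𝓤 h1 h2
  rw [show continuum.{0} = aleph 1 from h] at h1
  have hc : 𝓤.Countable := (countable_iff_lt_aleph_one _).2 h1
  exact (dense_sInter_of_isOpen (fun U hU => (h2 U hU).1) hc (fun U hU => (h2 U hU).2)).nonempty

lemma reap_of_cov (h : CovMeagreEqContinuum) : Reap := by
  intro 𝓕 h1 h2
  let g : 𝓕 × ℕ × Bool → Set (ℕ → Bool) := fun q => {x | ∃ m ∈ q.1.1, q.2.1 < m ∧ x m = q.2.2}
  obtain ⟨x, hx⟩ := h (range g) (lt_of_le_of_lt mk_range_le (by
      simp only [mk_prod, lift_id, mk_eq_aleph0]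
      exact mul_lt_of_lt aleph0_le_continuum h1 aleph0_lt_continuum)) (by
    rintro _ ⟨⟨A, n, b⟩, rfl⟩
    constructor
    · have : g (A, n, b) = ⋃ m ∈ {m ∈ A.1 | n < m}, (fun x : ℕ → Bool => x m) ⁻¹' {b} := by
        ext x; simp [g, and_assoc]
      rw [this]
      exact isOpen_biUnion fun m _ => (isOpen_discrete _).preimage (continuous_apply m)
    · intro y
      rw [mem_closure_iff]
      intro o ho hy
      obtain ⟨F, u, hu, hF⟩ := isOpen_pi_iff.1 ho y hy
      obtain ⟨m, hm, hm2⟩ := (h2 A.1 A.2).exists_gt (max n (F.sup id))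
      refine ⟨Function.update y m b, hF ?_, m, hm, lt_of_le_of_lt (le_max_left _ _) hm2, by simp⟩
      intro i hi
      have : i ≠ m := by
        have := Finset.le_sup (f := id) (Finset.mem_coe.1 hi)
        have := le_max_right n (F.sup id)
        simp only [id] at *
        omega
      rw [Function.update_of_ne this]
      exact (hu i hi).2)
  refine ⟨{m | x m = true}, fun A hA => ⟨?_, ?_⟩⟩
  · refine infinite_of_forall_exists_gt fun n => ?_
    obtain ⟨m, a, b, c⟩ := hx _ ⟨(⟨A, hA⟩, n, true), rfl⟩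
    exact ⟨m, ⟨a, c⟩, b⟩
  · refine infinite_of_forall_exists_gt fun n => ?_
    obtain ⟨m, a, b, c⟩ := hx _ ⟨(⟨A, hA⟩, n, false), rfl⟩
    exact ⟨m, ⟨a, by simpa using c⟩, b⟩

end Vale.Agent.P068
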