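import Mathlib

/-! Uniform matroids given by base families. -/

open Set

namespace Vale.Agent.P068

/-- almost inclusion -/
def AS {α : Type*} (A B : Set α) : Prop := (A \ B).Finite

lemma AS.of_subset {α : Type*} {A B : Set α} (h : A ⊆ B) : AS A B := by
  unfold AS
  rw [sdiff_eq_empty.2 h]
  exact finite_empty

lemma AS.refl {α : Type*} (A : Set α) : AS A A := AS.of_subset subset_rfl

lemma AS.trans {α : Type*} {A B C : Set α} (h1 : AS A B) (h2 : AS B C) : AS A C := by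
  unfold AS at *
  refine (h1.union h2).subset ?_
  intro x hx
  by_cases hb : x ∈ B
  · exact Or.inr ⟨hb, hx.2⟩
  · exact Or.inl ⟨hx.1, hb⟩

lemma AS.compl {α : Type*} {A B : Set α} (h : AS A B) : AS Bᶜ Aᶜ := by
  unfold AS at *
  refine h.subset ?_
  intro x hx
  exact ⟨by simpa using hx.2, hx.1⟩

/-- base family of a uniform matroid -/
structure UFam (α : Type*) where
  base : Set α → Prop
  anti : ∀ B B', base B → base B' → B ⊆ B' → B = B'
  exch : ∀ B a b, base B → a ∈ B → b ∉ B → base (insert b (B \ {a}))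
  inter : ∀ L U, L ⊆ U → ∃ B, base B ∧ (U ⊆ B ∨ B ⊆ L ∨ (L ⊆ B ∧ B ⊆ U))

namespace UFam

variable {α β : Type*}

def ind (W : UFam α) (Z : Set α) : Prop := ∃ B, W.base B ∧ Z ⊆ B
def spn (W : UFam α) (Z : Set α) : Prop := ∃ B, W.base B ∧ B ⊆ Z

lemma ind.mono {W : UFam α} {Z Z' : Set α} (h : W.ind Z) (hz : Z' ⊆ Z) : W.ind Z' := by
  obtain ⟨B, hB, h⟩ := h
  exact ⟨B, hB, hz.trans h⟩

lemma spn.mono {W : UFam α} {Z Z' : Set α} (h : W.spn Z) (hz : Z ⊆ Z') : W.spn Z' := by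
  obtain ⟨B, hB, h⟩ := h
  exact ⟨B, hB, h.trans hz⟩

lemma eq_of_spn_ind {W : UFam α} {Z Z' : Set α} (h : W.spn Z) (h' : W.ind Z') (hz : Z ⊆ Z') :
    Z' ⊆ Z := by
  obtain ⟨B, hB, h⟩ := h
  obtain ⟨B', hB', h'⟩ := h'
  have := W.anti B B' hB hB' (h.trans (hz.trans h'))
  subst this
  exact h'.trans h

lemma spn_of_insert {W : UFam α} {T : Set α} {x : α} (hT : W.ind T) (hx : ¬ W.ind (insert x T)) :
    W.spn T := by
  obtain ⟨B, hB, h⟩ := hT
  by_cases hBT : B ⊆ T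
  · exact ⟨B, hB, hBT⟩
  · exfalso
    obtain ⟨y, hyB, hyT⟩ := not_subset.1 hBT
    by_cases hxB : x ∈ B
    · exact hx ⟨B, hB, insert_subset hxB h⟩
    · refine hx ⟨_, W.exch B y x hB hyB hxB, ?_⟩
      apply insert_subset_insert
      intro z hz
      exact ⟨h hz, fun hzy => hyT (by rw [mem_singleton_iff.1 hzy] at hz; exact hz)⟩

/-- the dual family -/
def dual (W : UFam α) : UFam α where
  base B := W.base Bᶜ
  anti B B' h h' hs := by
    have := W.anti _ _ h' h (compl_subset_compl.2 hs)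
    exact (compl_injective this).symm
  exch B a b h ha hb := by
    have := W.exch Bᶜ b a h hb (by simpa using ha)
    convert this using 1
    ext z
    simp only [mem_compl_iff, mem_insert_iff, mem_sdiff, mem_singleton_iff]
    by_cases hza : z = a
    · subst hza
      have : z ≠ b := fun h => hb (h ▸ ha)
      simp [this]
    · simp [hza, and_comm]
  inter L U h := by
    obtain ⟨B, hB, h⟩ := W.inter Uᶜ Lᶜ (compl_subset_compl.2 h)
    refine ⟨Bᶜ, by simpa using hB, ?_⟩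
    rcases h with h | h | h
    · exact Or.inr (Or.inl (compl_subset_comm.1 h))
    · exact Or.inl (subset_compl_comm.1 h)
    · exact Or.inr (Or.inr ⟨subset_compl_comm.1 h.2, compl_subset_comm.1 h.1⟩)

lemma dual_ind {W : UFam α} {Z : Set α} : W.dual.ind Z ↔ W.spn Zᶜ := by
  constructor
  · rintro ⟨B, hB, h⟩
    exact ⟨Bᶜ, hB, compl_subset_compl.2 h⟩
  · rintro ⟨B, hB, h⟩
    exact ⟨Bᶜ, by simpa [dual] using hB, subset_compl_comm.1 h⟩

lemma dual_spn {W : UFam α} {Z : Set α} : W.dual.spn Z ↔ W.ind Zᶜ := by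
  constructor
  · rintro ⟨B, hB, h⟩
    exact ⟨Bᶜ, hB, compl_subset_compl.2 h⟩
  · rintro ⟨B, hB, h⟩
    exact ⟨Bᶜ, by simpa [dual] using hB, compl_subset_comm.1 h⟩

/-- transport along an equivalence -/
def comap (W : UFam α) (e : α ≃ β) : UFam β where
  base B := W.base (e ⁻¹' B)
  anti B B' h h' hs := by
    have := W.anti _ _ h h' (preimage_mono hs)
    exact (e.surjective.preimage_injective this)
  exch B a b h ha hb := by
    have := W.exch (e ⁻¹' B) (e.symm a) (e.symm b) h (by simpa using ha) (by simpa using hb)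
    convert this using 1
    ext z
    simp only [mem_preimage, mem_insert_iff, mem_sdiff, mem_singleton_iff, Equiv.eq_symm_apply]
  inter L U h := by
    obtain ⟨B, hB, h⟩ := W.inter (e ⁻¹' L) (e ⁻¹' U) (preimage_mono h)
    refine ⟨e.symm ⁻¹' B, by simpa [preimage_preimage] using hB, ?_⟩
    have k1 : ∀ Z : Set β, e ⁻¹' Z ⊆ B → Z ⊆ e.symm ⁻¹' B := fun Z hZ z hz =>
      hZ (by simpa using hz)
    have k2 : ∀ Z : Set β, B ⊆ e ⁻¹' Z → e.symm ⁻¹' B ⊆ Z := fun Z hZ z hz => by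
      simpa using hZ hz
    rcases h with h | h | h
    · exact Or.inl (k1 _ h)
    · exact Or.inr (Or.inl (k2 _ h))
    · exact Or.inr (Or.inr ⟨k1 _ h.1, k2 _ h.2⟩)

lemma comap_ind {W : UFam α} {e : α ≃ β} {Z : Set β} (h : (W.comap e).ind Z) :
    W.ind (e ⁻¹' Z) := by
  obtain ⟨B, hB, h⟩ := h
  exact ⟨_, hB, preimage_mono h⟩

lemma comap_spn {W : UFam α} {e : α ≃ β} {Z : Set β} (h : (W.comap e).spn Z) :
    W.spn (e ⁻¹' Z) := by
  obtain ⟨B, hB, h⟩ := h
  exact ⟨_, hB, preimage_mono h⟩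

/-- the matroid of a uniform family -/
def toMatroid (W : UFam α) : Matroid α :=
  Matroid.ofBase univ W.base
    (by obtain ⟨B, hB, -⟩ := W.inter ∅ ∅ subset_rfl; exact ⟨B, hB⟩)
    (by
      intro X Y hX hY a ha
      have : ¬ Y ⊆ X := fun h => ha.2 (by rw [W.anti Y X hY hX h]; exact ha.1)
      obtain ⟨b, hbY, hbX⟩ := not_subset.1 this
      exact ⟨b, ⟨hbY, hbX⟩, W.exch X a b hX ha.1 hbX⟩)
    (by
      intro X _ I hI hIX
      obtain ⟨B, hB, h⟩ := W.inter I X hIX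
      rcases h with h | h | h
      · exact ⟨X, hIX, ⟨⟨B, hB, h⟩, subset_rfl⟩, fun K hK _ => hK.2⟩
      · exact ⟨I, subset_rfl, ⟨hI, hIX⟩, fun K hK hIK =>
          eq_of_spn_ind (W := W) ⟨B, hB, h⟩ hK.1 hIK⟩
      · exact ⟨B, h.1, ⟨⟨B, hB, subset_rfl⟩, h.2⟩, fun K hK hIK =>
          eq_of_spn_ind (W := W) ⟨B, hB, subset_rfl⟩ hK.1 hIK⟩)
    (fun _ _ => subset_univ _)

lemma toMatroid_indep {W : UFam α} {I : Set α} : W.toMatroid.Indep I ↔ W.ind I := Iff.rfl

lemma toMatroid_E {W : UFam α} : W.toMatroid.E = univ := rfl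

end UFam

/-! ### Balanced modifications -/

section Bal
variable {α : Type*}

/-- index of `X` relative to `B` -/
noncomputable def idx (B X : Set α) : ℤ := ((X \ B).ncard : ℤ) - ((B \ X).ncard : ℤ)

lemma idx_sub {B X Y : Set α} (hXY : X ⊆ Y) (hY : AS Y B) (hX : AS B X) :
    (Y \ X).Finite ∧ idx B Y = idx B X + (Y \ X).ncard := by
  unfold AS at *
  have h1 : Y \ B = (X \ B) ∪ ((Y \ X) \ B) := by
    ext z; simp only [mem_sdiff, mem_union]; constructor
    · rintro ⟨a, b⟩; by_cases hz : z ∈ X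
      · exact Or.inl ⟨hz, b⟩
      · exact Or.inr ⟨⟨a, hz⟩, b⟩
    · rintro (⟨a, b⟩ | ⟨⟨a, _⟩, b⟩)
      · exact ⟨hXY a, b⟩
      · exact ⟨a, b⟩
  have h2 : B \ X = (B \ Y) ∪ ((Y \ X) ∩ B) := by
    ext z; simp only [mem_sdiff, mem_union, mem_inter_iff]; constructor
    · rintro ⟨a, b⟩; by_cases hz : z ∈ Y
      · exact Or.inr ⟨⟨hz, b⟩, a⟩
      · exact Or.inl ⟨a, hz⟩
    · rintro (⟨a, b⟩ | ⟨⟨_, a⟩, b⟩)
      · exact ⟨a, fun h => b (hXY h)⟩
      · exact ⟨b, a⟩
  have f1 : (X \ B).Finite := hY.subset (h1 ▸ subset_union_left)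
  have f2 : ((Y \ X) \ B).Finite := hY.subset (h1 ▸ subset_union_right)
  have f3 : (B \ Y).Finite := hX.subset (h2 ▸ subset_union_left)
  have f4 : ((Y \ X) ∩ B).Finite := hX.subset (h2 ▸ subset_union_right)
  have h3 : Y \ X = ((Y \ X) ∩ B) ∪ ((Y \ X) \ B) := (inter_union_sdiff _ _).symm
  have e1 : (Y \ B).ncard = (X \ B).ncard + ((Y \ X) \ B).ncard := by
    rw [h1]
    refine ncard_union_eq ?_ f1 f2
    rw [disjoint_left]; rintro z ⟨a, _⟩ ⟨⟨_, c⟩, _⟩; exact c a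
  have e2 : (B \ X).ncard = (B \ Y).ncard + ((Y \ X) ∩ B).ncard := by
    rw [h2]
    refine ncard_union_eq ?_ f3 f4
    rw [disjoint_left]; rintro z ⟨_, a⟩ ⟨⟨c, _⟩, _⟩; exact a c
  have e3 : (Y \ X).ncard = ((Y \ X) ∩ B).ncard + ((Y \ X) \ B).ncard := by
    conv_lhs => rw [h3]
    refine ncard_union_eq ?_ f4 f2
    rw [disjoint_left]; rintro z ⟨_, a⟩ ⟨_, c⟩; exact c a
  refine ⟨h3 ▸ f4.union f2, ?_⟩
  unfold idx
  rw [e1, e2, e3]
  push_cast
  ring

/-- balanced finite modification -/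
def Bal (B X : Set α) : Prop := AS X B ∧ AS B X ∧ idx B X = 0

lemma Bal.refl (B : Set α) : Bal B B := ⟨AS.refl _, AS.refl _, by simp [idx]⟩

lemma idx_compl (B X : Set α) : idx Bᶜ Xᶜ = - idx B X := by
  unfold idx
  rw [compl_sdiff_compl, compl_sdiff_compl]
  ring

lemma Bal.compl {B X : Set α} (h : Bal B X) : Bal Bᶜ Xᶜ :=
  ⟨h.2.1.compl, h.1.compl, by rw [idx_compl, h.2.2]; simp⟩

lemma exists_sub_ncard {S : Set α} {n : ℕ} (h : S.Infinite ∨ n ≤ S.ncard) :
    ∃ F ⊆ S, F.Finite ∧ F.ncard = n := by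
  rcases h with h | h
  · obtain ⟨F, h1, h2, h3⟩ := h.exists_subset_ncard_eq n
    exact ⟨F, h1, h2, h3⟩
  · by_cases hS : S.Finite
    · obtain ⟨F, h1, h3⟩ := exists_subset_card_eq h
      exact ⟨F, h1, hS.subset h1, h3⟩
    · obtain ⟨F, h1, h2, h3⟩ := (not_finite.1 hS).exists_subset_ncard_eq n
      exact ⟨F, h1, h2, h3⟩

lemma bal_remove {B X F : Set α} (h1 : AS X B) (h2 : AS B X) (hF : F ⊆ X) (hf : F.Finite)
    (hn : (F.ncard : ℤ) = idx B X) : Bal B (X \ F) := by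
  have a1 : AS B (X \ F) := by
    unfold AS at *
    refine (h2.union hf).subset ?_
    intro z hz
    by_cases hzF : z ∈ F
    · exact Or.inr hzF
    · exact Or.inl ⟨hz.1, fun hx => hz.2 ⟨hx, hzF⟩⟩
  refine ⟨(AS.of_subset sdiff_subset).trans h1, a1, ?_⟩
  have := (idx_sub (B := B) (X := X \ F) (Y := X) sdiff_subset h1 a1).2
  rw [sdiff_sdiff_cancel_left hF] at this
  omega

lemma bal_add {B X F : Set α} (h1 : AS X B) (h2 : AS B X) (hF : Disjoint F X) (hf : F.Finite)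
    (hn : (F.ncard : ℤ) = - idx B X) : Bal B (X ∪ F) := by
  have a1 : AS (X ∪ F) B := by
    unfold AS at *
    refine (h1.union hf).subset ?_
    rintro z ⟨hz | hz, hb⟩
    · exact Or.inl ⟨hz, hb⟩
    · exact Or.inr hz
  refine ⟨a1, h2.trans (AS.of_subset subset_union_left), ?_⟩
  have := (idx_sub (B := B) (X := X) (Y := X ∪ F) subset_union_left a1 h2).2
  rw [union_sdiff_left, hF.sdiff_eq_left] at this
  omega

lemma bal_inter_of_as {B L U : Set α} (hLU : L ⊆ U) (h : AS U B) :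
    ∃ X, Bal B X ∧ (U ⊆ X ∨ X ⊆ L ∨ (L ⊆ X ∧ X ⊆ U)) := by
  by_cases hinf : (B \ U).Infinite
  · obtain ⟨F, hF1, hF2, hF3⟩ := exists_sub_ncard (S := B \ U) (n := (U \ B).ncard) (Or.inl hinf)
    refine ⟨(B ∪ U) \ F, bal_remove ?_ (AS.of_subset subset_union_left) ?_ hF2 ?_, Or.inl ?_⟩
    · unfold AS at *
      rw [union_sdiff_left]; exact h
    · exact hF1.trans (sdiff_subset.trans subset_union_left)
    · unfold idx
      rw [union_sdiff_left, sdiff_eq_empty.2 subset_union_left, hF3]; simp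
    · intro z hz
      exact ⟨Or.inr hz, fun hzF => (hF1 hzF).2 hz⟩
  · have h2 : AS B U := not_infinite.1 hinf
    by_cases hU : idx B U ≤ 0
    · obtain ⟨F, hF1, hF2, hF3⟩ := exists_sub_ncard (S := B \ U) (n := (- idx B U).toNat)
        (Or.inr (by unfold idx at *; omega))
      refine ⟨U ∪ F, bal_add h h2 ?_ hF2 (by omega), Or.inl subset_union_left⟩
      rw [disjoint_left]; intro z hz; exact (hF1 hz).2
    · by_cases hc : (U \ L).Infinite ∨ (idx B U).toNat ≤ (U \ L).ncard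
      · obtain ⟨F, hF1, hF2, hF3⟩ := exists_sub_ncard hc
        refine ⟨U \ F, bal_remove h h2 (hF1.trans sdiff_subset) hF2 (by omega),
          Or.inr (Or.inr ⟨?_, sdiff_subset⟩)⟩
        intro z hz
        exact ⟨hLU hz, fun hzF => (hF1 hzF).2 hz⟩
      · push Not at hc
        have hL1 : AS L B := (AS.of_subset hLU).trans h
        have hL2 : AS B L := h2.trans hc.1
        have e := (idx_sub hLU h hL2).2
        obtain ⟨F, hF1, hF2, hF3⟩ := exists_sub_ncard (S := L \ B) (n := (idx B L).toNat)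
          (Or.inr (by have := hc.2; unfold idx at *; omega))
        refine ⟨L \ F, bal_remove hL1 hL2 (hF1.trans sdiff_subset) hF2 (by have := hc.2; omega),
          Or.inr (Or.inl sdiff_subset)⟩

/-- from an almost-antichain with the interval property to a uniform family -/
def mkUFam (𝓐 : Set (Set α)) (h1 : ∀ B ∈ 𝓐, ∀ B' ∈ 𝓐, AS B B' → B = B')
    (h2 : ∀ L U, L ⊆ U → ∃ B ∈ 𝓐, AS U B ∨ AS B L ∨ (L ⊆ B ∧ B ⊆ U)) : UFam α where
  base X := ∃ B ∈ 𝓐, Bal B X
  anti X Y := by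
    rintro ⟨B, hB, hX⟩ ⟨B', hB', hY⟩ hs
    have := h1 B hB B' hB' (hX.2.1.trans ((AS.of_subset hs).trans hY.1))
    subst this
    obtain ⟨f, e⟩ := idx_sub hs hY.1 hX.2.1
    rw [hX.2.2, hY.2.2] at e
    have : (Y \ X).ncard = 0 := by omega
    rw [ncard_eq_zero f, sdiff_eq_empty] at this
    exact hs.antisymm this
  exch X a b := by
    rintro ⟨B, hB, hX⟩ ha hb
    refine ⟨B, hB, ?_⟩
    have a1 : AS B (X \ {a}) := by
      have := hX.2.1
      unfold AS at *
      refine (this.union (finite_singleton a)).subset ?_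
      intro z hz
      by_cases hzF : z ∈ ({a} : Set α)
      · exact Or.inr hzF
      · exact Or.inl ⟨hz.1, fun hx => hz.2 ⟨hx, hzF⟩⟩
    have e := (idx_sub (B := B) (X := X \ {a}) (Y := X) sdiff_subset hX.1 a1).2
    rw [sdiff_sdiff_cancel_left (singleton_subset_iff.2 ha), ncard_singleton, hX.2.2] at e
    rw [insert_eq, union_comm]
    refine bal_add ((AS.of_subset sdiff_subset).trans hX.1) a1 ?_ (finite_singleton b) ?_
    · rw [disjoint_singleton_left]; exact fun h => hb h.1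
    · rw [ncard_singleton]; omega
  inter L U hLU := by
    obtain ⟨B, hB, h⟩ := h2 L U hLU
    rcases h with h | h | h
    · obtain ⟨X, hX, h⟩ := bal_inter_of_as hLU h
      exact ⟨X, ⟨B, hB, hX⟩, h⟩
    · obtain ⟨X, hX, h⟩ := bal_inter_of_as (compl_subset_compl.2 hLU) h.compl
      refine ⟨Xᶜ, ⟨B, hB, by simpa using hX.compl⟩, ?_⟩
      rcases h with h | h | h
      · exact Or.inr (Or.inl (compl_subset_comm.1 h))
      · exact Or.inl (subset_compl_comm.1 h)
      · exact Or.inr (Or.inr ⟨subset_compl_comm.1 h.2, compl_subset_comm.1 h.1⟩)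
    · exact ⟨B, ⟨B, hB, Bal.refl B⟩, Or.inr (Or.inr h)⟩

end Bal

end Vale.Agent.P068
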