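import Vale.Agent.P068.ZMep

/-! Counting potentials with a trace term have the minimal element property. -/

open Set

namespace Vale.Agent.P068

variable {Ω κ : Type*}

/-- the trace of a set on a family of ultrafilters -/
def tr (V : κ → Ultrafilter Ω) (z : Set Ω) : Set κ := {k | z ∈ V k}

lemma tr_mono {V : κ → Ultrafilter Ω} {z w : Set Ω} (h : z ⊆ w) : tr V z ⊆ tr V w :=
  fun _ hk => Filter.mem_of_superset hk h

lemma not_mem_of_fin {U : Ultrafilter Ω} (hU : (U : Filter Ω) ≤ Filter.cofinite) {z : Set Ω}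
    (h : z.Finite) : z ∉ U :=
  Ultrafilter.compl_mem_iff_notMem.1 (hU h.compl_mem_cofinite)

lemma mem_of_as {U : Ultrafilter Ω} (hU : (U : Filter Ω) ≤ Filter.cofinite) {z w : Set Ω}
    (h : AS z w) (hz : z ∈ U) : w ∈ U := by
  have : w ∪ (z \ w) ∈ U := Filter.mem_of_superset hz fun a ha => by
    by_cases q : a ∈ w
    · exact Or.inl q
    · exact Or.inr ⟨ha, q⟩
  exact (Ultrafilter.union_mem_iff.1 this).resolve_right (not_mem_of_fin hU h)

lemma chain_fin {β : Type*} {c : Set (Set Ω)} (hc : IsChain (· ⊆ ·) c) (hn : c.Nonempty)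
    (p : β → Set Ω → Prop) (hp : ∀ i z w, w ⊆ z → p i z → p i w) {I : Set β} (hI : I.Finite)
    (h : ∀ i ∈ I, ∃ z ∈ c, p i z) : ∃ z ∈ c, ∀ i ∈ I, p i z := by
  induction I, hI using Set.Finite.induction_on with
  | empty => obtain ⟨z, hz⟩ := hn; exact ⟨z, hz, by simp⟩
  | @insert a s _ _ ih =>
    obtain ⟨z, hz, h1⟩ := ih fun i hi => h i (Or.inr hi)
    obtain ⟨w, hw, h2⟩ := h a (Or.inl rfl)
    rcases hc.total hz hw with q | q
    · refine ⟨z, hz, ?_⟩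
      rintro i (rfl | hi)
      · exact hp _ _ _ q h2
      · exact h1 i hi
    · refine ⟨w, hw, ?_⟩
      rintro i (rfl | hi)
      · exact h2
      · exact hp _ _ _ q (h1 i hi)

/-- the potential -/
noncomputable def pot (D : ℕ → Set Ω) (K : ℕ → Set κ) (V : κ → Ultrafilter Ω) (s : ℕ)
    (z : Set Ω) : ℕ := (D s ∩ z).ncard + (K s ∩ tr V z).ncard

/-- good states -/
def Gd (K : ℕ → Set κ) (V : κ → Ultrafilter Ω) (E : κ → Set Ω) (x y z : Set Ω) : Prop :=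
  x ⊆ z ∧ z ⊆ y ∧ ∀ s, ∀ k ∈ K s, z ∈ V k → x ∈ V k ∨ y ∩ E k ⊆ z

lemma zmin {D : ℕ → Set Ω} {K : ℕ → Set κ} {V : κ → Ultrafilter Ω} {E : κ → Set Ω}
    (hD : ∀ s, (D s).Finite) (hK : ∀ s, (K s).Finite) (hE : ∀ s, ∀ k ∈ K s, E k ∈ V k)
    {x y : Set Ω} (hxy : x ⊆ y) (b : ℕ → ℕ) (hy : ∀ s, b s ≤ pot D K V s y) :
    ∃ z, Gd K V E x y z ∧ (∀ s, b s ≤ pot D K V s z) ∧
      ∀ w, w ⊆ z → Gd K V E x y w → (∀ s, b s ≤ pot D K V s w) → z ⊆ w := by
  refine (zorn_superset_nonempty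
    {z | Gd K V E x y z ∧ ∀ s, b s ≤ pot D K V s z} ?_ y
    ⟨⟨hxy, subset_rfl, fun _ _ _ _ => Or.inr inter_subset_left⟩, hy⟩).imp fun z hz =>
      ⟨hz.2.1.1, hz.2.1.2, fun w h1 h2 h3 => hz.2.2 ⟨h2, h3⟩ h1⟩
  intro c hc hch hn
  obtain ⟨z0, hz0⟩ := hn
  have g : ∀ s, ∀ k ∈ K s, (∀ z ∈ c, z ∈ V k) → x ∈ V k ∨ y ∩ E k ⊆ ⋂₀ c := by
    intro s k hk h
    by_cases q : x ∈ V k
    · exact Or.inl q
    · exact Or.inr (subset_sInter fun z hz => ((hc hz).1.2.2 s k hk (h z hz)).resolve_left q)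
  have gx : x ⊆ ⋂₀ c := subset_sInter fun z hz => (hc hz).1.1
  refine ⟨⋂₀ c, ⟨⟨gx, (sInter_subset_of_mem hz0).trans (hc hz0).1.2.1, fun s k hk h =>
    g s k hk fun z hz => Filter.mem_of_superset h (sInter_subset_of_mem hz)⟩, fun s => ?_⟩,
    fun z hz => sInter_subset_of_mem hz⟩
  obtain ⟨z1, a1, a2⟩ := chain_fin hch ⟨z0, hz0⟩ (fun i z => i ∉ z)
    (fun i z w h q r => q (h r)) ((hD s).subset (sdiff_subset (t := ⋂₀ c)))
    (fun i hi => by simpa using hi.2)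
  obtain ⟨z2, a3, a4⟩ := chain_fin hch ⟨z0, hz0⟩ (fun k z => z ∉ V k)
    (fun i z w h q r => q (Filter.mem_of_superset r h))
    ((hK s).subset (sdiff_subset (t := tr V (⋂₀ c))))
    (fun k hk => by
      by_contra q
      push Not at q
      rcases g s k hk.1 q with r | r
      · exact hk.2 (Filter.mem_of_superset r gx)
      · exact hk.2 (Filter.mem_of_superset (Filter.inter_mem
          (Filter.mem_of_superset (q z0 hz0) (hc hz0).1.2.1) (hE s k hk.1)) r))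
  have fin : ∀ z ∈ c, z ⊆ z1 → z ⊆ z2 → b s ≤ pot D K V s (⋂₀ c) := by
    intro z hz p1 p2
    refine ((hc hz).2 s).trans (add_le_add ?_ ?_)
    · refine ncard_le_ncard (fun i hi => ⟨hi.1, ?_⟩) ((hD s).subset inter_subset_left)
      by_contra q
      exact a2 i ⟨hi.1, q⟩ (p1 hi.2)
    · refine ncard_le_ncard (fun i hi => ⟨hi.1, ?_⟩) ((hK s).subset inter_subset_left)
      by_contra q
      exact a4 i ⟨hi.1, q⟩ (Filter.mem_of_superset hi.2 p2)
  rcases hch.total a1 a3 with q | q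
  · exact fin z1 a1 subset_rfl q
  · exact fin z2 a3 q subset_rfl

lemma ncard_le_add {β : Type*} {A B F : Set β} (hB : B.Finite) (hF : F.Finite) (h : A ⊆ B ∪ F) :
    A.ncard ≤ B.ncard + F.ncard :=
  (ncard_le_ncard h (hB.union hF)).trans (ncard_union_le _ _)

lemma local_min {D : ℕ → Set Ω} (hD : ∀ s, (D s).Finite) (hm : Monotone D)
    {x y : Set Ω} (hxy : x ⊆ y) (b : ℕ → ℕ) (hy : ∀ s, b s ≤ (D s ∩ y).ncard) :
    ∃ z, x ⊆ z ∧ z ⊆ y ∧ (∀ s, b s ≤ (D s ∩ z).ncard) ∧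
      (AS z x ∨ ∀ t, ∃ s, t ≤ s ∧ 0 < b s ∧ (D s ∩ z).ncard ≤ b s) := by
  obtain ⟨z, h1, h2, h3⟩ := zmin (D := D) (K := fun _ => (∅ : Set Empty))
    (V := fun k => k.elim) (E := fun k => k.elim) hD (fun _ => finite_empty)
    (fun _ k => k.elim) hxy b (fun s => by simpa [pot] using hy s)
  simp only [pot, empty_inter, ncard_empty, add_zero] at h2 h3
  refine ⟨z, h1.1, h1.2.1, h2, ?_⟩
  by_cases q : AS z x
  · exact Or.inl q
  refine Or.inr fun t => ?_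
  obtain ⟨e, he, het⟩ := (Set.Infinite.sdiff q (hD t)).nonempty
  have : ¬ ∀ s, b s ≤ (D s ∩ (z \ {e})).ncard := fun r =>
    (h3 (z \ {e}) sdiff_subset ⟨fun a ha => ⟨h1.1 ha, fun j => he.2 (j ▸ ha)⟩,
      sdiff_subset.trans h1.2.1, fun _ k => k.elim⟩ r he.1).2 rfl
  push Not at this
  obtain ⟨s, hs⟩ := this
  have f : (D s ∩ (z \ {e})).Finite := (hD s).subset inter_subset_left
  refine ⟨s, ?_, by omega, ?_⟩
  · by_contra r
    have : (D s ∩ z).ncard ≤ (D s ∩ (z \ {e})).ncard :=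
      ncard_le_ncard (fun a ha => ⟨ha.1, ha.2, fun j => het (hm (not_le.1 r).le (j ▸ ha.1))⟩) f
    have := h2 s
    omega
  · have : (D s ∩ z).ncard ≤ (D s ∩ (z \ {e})).ncard + ({e} : Set Ω).ncard :=
      ncard_le_add f (finite_singleton e) fun a ha => by
        by_cases j : a = e
        · exact Or.inr j
        · exact Or.inl ⟨ha.1, ha.2, j⟩
    rw [ncard_singleton] at this
    omega

theorem core {D : ℕ → Set Ω} {K : ℕ → Set κ} {V : κ → Ultrafilter Ω} {E : κ → Set Ω}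
    (hD : ∀ s, (D s).Finite) (hm : Monotone D) (hK : ∀ s, (K s).Finite) (hKm : Monotone K)
    (hV : ∀ k, (V k : Filter Ω) ≤ Filter.cofinite) (hE : ∀ s, ∀ k ∈ K s, E k ∈ V k)
    (hd : ∀ s, ∀ k ∈ K s, ∀ k' ∈ K s, k ≠ k' → Disjoint (E k) (E k')) (θ : ℕ → ℕ)
    {x y : Set Ω} (hxy : x ⊆ y) (hx : ¬ ∃ C, ∀ s, θ s ≤ C + pot D K V s x)
    (hy : ∃ C, ∀ s, θ s ≤ C + pot D K V s y) :
    ∃ z, x ⊆ z ∧ z ⊆ y ∧ (∃ C, ∀ s, θ s ≤ C + pot D K V s z) ∧
      ∃ C, ∀ t, ∃ s, t ≤ s ∧ pot D K V s z ≤ θ s + C := by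
  by_contra hcon
  have nt : ∀ z, x ⊆ z → z ⊆ y → (∃ C, ∀ s, θ s ≤ C + pot D K V s z) →
      ∃ t, ∀ s, t ≤ s → θ s < pot D K V s z := by
    intro z h1 h2 h3
    by_contra q
    push Not at q
    exact hcon ⟨z, h1, h2, h3, 0, q⟩
  have fD : ∀ s z, (D s ∩ z).Finite := fun s z => (hD s).subset inter_subset_left
  have fK : ∀ s z, (K s ∩ z).Finite := fun s z => (hK s).subset inter_subset_left
  have hd' : ∀ s, ∀ k ∈ K s, ∀ s', ∀ k' ∈ K s', k ≠ k' → Disjoint (E k) (E k') :=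
    fun s k hk s' k' hk' => hd (max s s') k (hKm (le_max_left _ _) hk) k' (hKm (le_max_right _ _) hk')
  have loc : ∀ z0 z1 : Set Ω, x ⊆ z0 → z0 ⊆ z1 → z1 ⊆ y → ∀ F : Set κ, F.Finite →
      (∀ s, K s ∩ tr V z1 ⊆ tr V z0 ∪ F) → (∃ C, ∀ s, θ s ≤ C + pot D K V s z1) →
      ∃ C, ∀ s, θ s ≤ C + pot D K V s z0 := by
    rintro z0 z1 h0 h01 h1 F hF hFs ⟨C, hC⟩
    have a : ∀ s z, z ⊆ z1 → (K s ∩ tr V z).ncard ≤ (K s ∩ tr V z0).ncard + F.ncard :=
      fun s z hz => ncard_le_add (fK _ _) hF fun k hk =>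
        (hFs s ⟨hk.1, tr_mono hz hk.2⟩).imp (fun q => ⟨hk.1, q⟩) id
    obtain ⟨z, g1, g2, g3, g4⟩ := local_min hD hm h01
      (fun s => θ s - (C + F.ncard + (K s ∩ tr V z0).ncard)) (fun s => by
        have := hC s
        have := a s z1 subset_rfl
        unfold pot at *
        omega)
    rcases g4 with g4 | g4
    · refine ⟨C + F.ncard + (z \ z0).ncard, fun s => ?_⟩
      have : (D s ∩ z).ncard ≤ (D s ∩ z0).ncard + (z \ z0).ncard :=
        ncard_le_add (fD _ _) g4 fun e he => by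
          by_cases j : e ∈ z0
          · exact Or.inl ⟨he.1, j⟩
          · exact Or.inr ⟨he.2, j⟩
      have := g3 s
      unfold pot
      omega
    · exfalso
      refine hcon ⟨z, h0.trans g1, g2.trans h1, ⟨C + F.ncard, fun s => ?_⟩, F.ncard, fun t => ?_⟩
      · have := g3 s
        have := ncard_le_ncard (inter_subset_inter_right (K s) (tr_mono (V := V) g1)) (fK s _)
        unfold pot
        omega
      · obtain ⟨s, s1, s2, s3⟩ := g4 t
        refine ⟨s, s1, ?_⟩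
        have := a s z g2
        unfold pot
        omega
  obtain ⟨C, hC⟩ := hy
  obtain ⟨z, g1, g2, g3⟩ := zmin hD hK hE hxy (fun s => θ s - C) (fun s => by
    have := hC s
    omega)
  have Nz : ∃ C, ∀ s, θ s ≤ C + pot D K V s z := ⟨C, fun s => by
    have := g2 s
    omega⟩
  obtain ⟨t0, ht0⟩ := nt z g1.1 g1.2.1 Nz
  refine hx (loc x z subset_rfl g1.1 g1.2.1 (K t0) (hK t0) ?_ Nz)
  rintro s0 k ⟨hk, hz⟩
  by_contra q
  simp only [mem_union, not_or] at q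
  have tr0 : ∀ s w, z \ (E k \ x) ⊆ w → K s ∩ tr V z ⊆ (K s ∩ tr V w) ∪ (K s ∩ {k}) := by
    rintro s w hw k' ⟨h1, h2⟩
    by_cases j : k' = k
    · exact Or.inr ⟨h1, j⟩
    · refine Or.inl ⟨h1, Filter.mem_of_superset (Filter.inter_mem h2 (hE s k' h1)) fun e he =>
        hw ⟨he.1, fun i => disjoint_left.1 (hd' s k' h1 s0 k hk j) he.2 i.1⟩⟩
  have x0 : x ⊆ z \ (E k \ x) := fun e he => ⟨g1.1 he, fun i => i.2 he⟩
  obtain ⟨t, ht⟩ := nt (z \ (E k \ x)) x0 (sdiff_subset.trans g1.2.1)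
    (loc _ z x0 sdiff_subset g1.2.1 {k} (finite_singleton k) (fun s k' hk' =>
      (tr0 s _ subset_rfl hk').imp (fun i => i.2) (fun i => i.2)) Nz)
  set w := z \ ((E k \ x) \ D t) with hw
  have w0 : z \ (E k \ x) ⊆ w := fun e he => ⟨he.1, fun i => he.2 i.1⟩
  have wk : w ∉ V k := fun i => by
    have : x ∪ D t ∈ V k := Filter.mem_of_superset (Filter.inter_mem i (hE s0 k hk)) fun e he => by
      by_contra j
      simp only [mem_union, not_or] at j
      exact he.1.2 ⟨⟨he.2, j.1⟩, j.2⟩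
    rcases Ultrafilter.union_mem_iff.1 this with j | j
    · exact q.1 j
    · exact not_mem_of_fin (hV k) (hD t) j
  have gw : Gd K V E x y w := by
    refine ⟨x0.trans w0, sdiff_subset.trans g1.2.1, fun s k' hk' i => ?_⟩
    have j : k' ≠ k := fun j => wk (j ▸ i)
    refine (g1.2.2 s k' hk' (Filter.mem_of_superset i sdiff_subset)).imp id fun r e he => ?_
    exact ⟨r he, fun i => disjoint_left.1 (hd' s k' hk' s0 k hk j) he.2 i.1.1⟩
  have : ¬ ∀ s, θ s - C ≤ pot D K V s w := fun r =>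
    wk (Filter.mem_of_superset hz (g3 w sdiff_subset gw r))
  push Not at this
  obtain ⟨s, hs⟩ := this
  by_cases st : t ≤ s
  · have := ht s st
    have := ncard_le_ncard (inter_subset_inter_right (D s) w0) (fD s _)
    have := ncard_le_ncard (inter_subset_inter_right (K s) (tr_mono (V := V) w0)) (fK s _)
    unfold pot at *
    omega
  · have a1 : (D s ∩ z).ncard ≤ (D s ∩ w).ncard := ncard_le_ncard
      (fun e he => ⟨he.1, he.2, fun i => i.2 (hm (not_le.1 st).le he.1)⟩) (fD s _)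
    have a2 := ncard_le_add (fK _ _) (fK _ _) (tr0 s w w0)
    by_cases s0 : t0 ≤ s
    · have := ht0 s s0
      have := ncard_le_ncard (inter_subset_right (s := K s) (t := {k})) (finite_singleton k)
      rw [ncard_singleton] at this
      unfold pot at *
      omega
    · have : K s ∩ {k} = ∅ := by
        rw [eq_empty_iff_forall_notMem]
        rintro _ ⟨i, rfl⟩
        exact q.2 (hKm (not_le.1 s0).le i)
      rw [this, ncard_empty] at a2
      have := g2 s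
      unfold pot at *
      omega

/-- the count in the windows starting at `n` keeps up with `θ` -/
def HvAt (G : ℕ → Set κ) (θ c : ℕ → ℕ) (T : Set κ) (n : ℕ) : Prop :=
  ∃ C, ∀ s, ∃ F : Set κ, F.Finite ∧ F ⊆ T ∩ (G s \ G n) ∧ θ s ≤ C + c s + F.ncard

lemma hvAt_of_ev {G : ℕ → Set κ} {θ c : ℕ → ℕ} {T : Set κ} {n s0 : ℕ}
    (h : ∀ s, s0 ≤ s → ∃ F : Set κ, F.Finite ∧ F ⊆ T ∩ (G s \ G n) ∧ θ s ≤ F.ncard) :
    HvAt G θ c T n := by
  refine ⟨∑ s ∈ Finset.range s0, θ s, fun s => ?_⟩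
  by_cases q : s0 ≤ s
  · obtain ⟨F, h1, h2, h3⟩ := h s q
    exact ⟨F, h1, h2, by omega⟩
  · have := Finset.single_le_sum (f := θ) (fun _ _ => Nat.zero_le _)
      (Finset.mem_range.2 (not_le.1 q))
    exact ⟨∅, finite_empty, empty_subset _, by omega⟩

lemma hvAt_of_inf {G : ℕ → Set κ} (hG : Monotone G) {θ c : ℕ → ℕ} {T : Set κ} {n s0 : ℕ}
    (h : (T ∩ (G s0 \ G n)).Infinite) : HvAt G θ c T n :=
  hvAt_of_ev (s0 := s0) fun s hs => by
    obtain ⟨F, h1, h2, h3⟩ := h.exists_subset_ncard_eq (θ s)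
    exact ⟨F, h2, h1.trans fun a ha => ⟨ha.1, hG hs ha.2.1, ha.2.2⟩, h3.ge⟩

theorem mep_hv {D : ℕ → Set Ω} {G : ℕ → Set κ} {V : κ → Ultrafilter Ω} {E : κ → Set Ω}
    (hD : ∀ s, (D s).Finite) (hm : Monotone D) (hx : ∀ e, ∃ t, e ∈ D t) (hG : Monotone G)
    (hV : ∀ k, (V k : Filter Ω) ≤ Filter.cofinite) (hE : ∀ s, ∀ k ∈ G s, E k ∈ V k)
    (hd : ∀ s, ∀ k ∈ G s, ∀ k' ∈ G s, k ≠ k' → Disjoint (E k) (E k')) (θ : ℕ → ℕ) :
    Mep (fun _ => True) (fun X => ∀ n, HvAt G θ (fun s => (D s ∩ X).ncard) (tr V X) n) := by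
  have fD : ∀ s z, (D s ∩ z).Finite := fun s z => (hD s).subset inter_subset_left
  have mono : ∀ x y n, AS x y → HvAt G θ (fun s => (D s ∩ x).ncard) (tr V x) n →
      HvAt G θ (fun s => (D s ∩ y).ncard) (tr V y) n := by
    rintro x y n hxy ⟨C, hC⟩
    refine ⟨C + (x \ y).ncard, fun s => ?_⟩
    obtain ⟨F, h1, h2, h3⟩ := hC s
    refine ⟨F, h1, fun k hk => ⟨mem_of_as (hV k) hxy (h2 hk).1, (h2 hk).2⟩, ?_⟩
    have : (D s ∩ x).ncard ≤ (D s ∩ y).ncard + (x \ y).ncard :=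
      ncard_le_add (fD _ _) hxy fun e he => by
        by_cases j : e ∈ y
        · exact Or.inl ⟨he.1, j⟩
        · exact Or.inr ⟨he.2, j⟩
    simp only at h3 ⊢
    omega
  refine ⟨fun x y _ _ hxy h n => mono x y n hxy (h n), fun x y _ _ hxy h0 hy => ?_⟩
  obtain ⟨n0, h0⟩ := not_forall.1 h0
  have fx : ∀ s, (tr V x ∩ (G s \ G n0)).Finite := fun s => by
    by_contra q
    exact h0 (hvAt_of_inf hG q)
  have red : ∃ y', x ⊆ y' ∧ y' ⊆ y ∧ (∀ n, HvAt G θ (fun s => (D s ∩ y').ncard) (tr V y') n) ∧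
      ∃ n1, n0 ≤ n1 ∧ ∀ s, (tr V y' ∩ (G s \ G n1)).Finite := by
    by_cases q : ∃ n1, n0 ≤ n1 ∧ ∀ s, (tr V y ∩ (G s \ G n1)).Finite
    · exact ⟨y, hxy, subset_rfl, hy, q⟩
    push Not at q
    classical
    let m : ℕ → ℕ := fun s => Nat.findGreatest (fun m => (tr V y ∩ (G s \ G m)).Infinite) s
    have hm1 : ∀ n, ∃ s1, ∀ s, s1 ≤ s → n ≤ m s ∧ (tr V y ∩ (G s \ G (m s))).Infinite := by
      intro n
      obtain ⟨s0, hs0⟩ := q (max n n0) (le_max_right _ _)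
      refine ⟨max s0 n, fun s hs => ?_⟩
      have i : (tr V y ∩ (G s \ G n)).Infinite := hs0.mono fun k hk =>
        ⟨hk.1, hG ((le_max_left _ _).trans hs) hk.2.1, fun j => hk.2.2 (hG (le_max_left _ _) j)⟩
      exact ⟨Nat.le_findGreatest ((le_max_right _ _).trans hs) i,
        Nat.findGreatest_spec (P := fun m => (tr V y ∩ (G s \ G m)).Infinite)
          ((le_max_right _ _).trans hs) i⟩
    have : ∀ s, ∃ F : Set κ, F.Finite ∧ F ⊆ tr V y ∩ (G s \ G (m s)) ∧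
        ((tr V y ∩ (G s \ G (m s))).Infinite → θ s ≤ F.ncard) := by
      intro s
      by_cases i : (tr V y ∩ (G s \ G (m s))).Infinite
      · obtain ⟨F, h1, h2, h3⟩ := i.exists_subset_ncard_eq (θ s)
        exact ⟨F, h2, h1, fun _ => h3.ge⟩
      · exact ⟨∅, finite_empty, empty_subset _, fun j => absurd j i⟩
    choose F F1 F2 F3 using this
    refine ⟨x ∪ (y ∩ ⋃ s, ⋃ k ∈ F s, E k), subset_union_left,
      union_subset hxy inter_subset_left, fun n => ?_, n0, le_rfl, fun s' => ?_⟩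
    · obtain ⟨s1, h1⟩ := hm1 n
      refine hvAt_of_ev (s0 := s1) fun s hs => ⟨F s, F1 s, fun k hk => ⟨?_, (F2 s hk).2.1,
        fun j => (F2 s hk).2.2 (hG (h1 s hs).1 j)⟩, F3 s (h1 s hs).2⟩
      refine Filter.mem_of_superset (Filter.inter_mem (F2 s hk).1 (hE s k (F2 s hk).2.1))
        fun e he => Or.inr ⟨he.1, ?_⟩
      exact mem_iUnion.2 ⟨s, mem_iUnion₂.2 ⟨k, hk, he.2⟩⟩
    · obtain ⟨s1, h1⟩ := hm1 s'
      refine ((fx s').union ((finite_Iio s1).biUnion fun s _ => F1 s)).subset fun k hk => ?_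
      by_cases j : ∃ s, k ∈ F s
      · obtain ⟨s, hs⟩ := j
        refine Or.inr (mem_iUnion₂.2 ⟨s, ?_, hs⟩)
        by_contra r
        exact (F2 s hs).2.2 (hG (h1 s (not_lt.1 r)).1 hk.2.1)
      · refine Or.inl ⟨Filter.mem_of_superset (Filter.inter_mem hk.1 (hE s' k hk.2.1)) ?_, hk.2⟩
        rintro e ⟨he | he, he2⟩
        · exact he
        · exfalso
          obtain ⟨s, hs⟩ := mem_iUnion.1 he.2
          obtain ⟨k', k1, k2⟩ := mem_iUnion₂.1 hs
          exact disjoint_left.1 (hd (max s s') k (hG (le_max_right _ _) hk.2.1) k'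
            (hG (le_max_left _ _) (F2 s k1).2.1) fun i => j ⟨s, i ▸ k1⟩) he2 k2
  obtain ⟨y', a1, a2, a3, n1, a4, a5⟩ := red
  let K : ℕ → Set κ := fun s => tr V y' ∩ (G s \ G n1)
  have fK : ∀ s z, (K s ∩ z).Finite := fun s z => (a5 s).subset inter_subset_left
  have le : ∀ s z F, z ⊆ y' → F ⊆ tr V z ∩ (G s \ G n1) → F.ncard ≤ (K s ∩ tr V z).ncard :=
    fun s z F hz hF => ncard_le_ncard
      (fun k hk => ⟨⟨tr_mono hz (hF hk).1, (hF hk).2⟩, (hF hk).1⟩) (fK _ _)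
  obtain ⟨z, b1, b2, ⟨C, b3⟩, C', b4⟩ := core (D := D) (K := K) (V := V) (E := E) hD hm a5
    (fun s t hst k hk => ⟨hk.1, hG hst hk.2.1, hk.2.2⟩) hV (fun s k hk => hE s k hk.2.1)
    (fun s k hk k' hk' => hd s k hk.2.1 k' hk'.2.1) θ a1 (by
      rintro ⟨C, hC⟩
      refine h0 ⟨C, fun s => ⟨K s ∩ tr V x, fK _ _, fun k hk =>
        ⟨hk.2, hk.1.2.1, fun j => hk.1.2.2 (hG a4 j)⟩, ?_⟩⟩
      have := hC s
      unfold pot at this
      simp only
      omega) (by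
      obtain ⟨C, hC⟩ := a3 n1
      refine ⟨C, fun s => ?_⟩
      obtain ⟨F, -, h2, h3⟩ := hC s
      have := le s y' F subset_rfl h2
      unfold pot
      simp only at h3
      omega)
  refine ⟨z, b1, b2.trans a2, fun n => ⟨C + (K n).ncard, fun s => ⟨(K s ∩ tr V z) \ K n,
    (fK _ _).subset sdiff_subset, fun k hk => ⟨hk.1.2, hk.1.1.2.1, fun j =>
      hk.2 ⟨hk.1.1.1, j, hk.1.1.2.2⟩⟩, ?_⟩⟩, fun w _ hw Nw => ?_⟩
  · have := b3 s
    have : (K s ∩ tr V z).ncard ≤ ((K s ∩ tr V z) \ K n).ncard + (K n).ncard :=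
      ncard_le_add ((fK _ _).subset sdiff_subset) (a5 n) fun k hk => by
        by_cases j : k ∈ K n
        · exact Or.inr j
        · exact Or.inl ⟨hk, j⟩
    unfold pot at *
    simp only
    omega
  · obtain ⟨C2, h⟩ := mono w (w ∩ z) n1 (hw.subset fun e he => ⟨he.1, fun j => he.2 ⟨he.1, j⟩⟩)
      (Nw n1)
    by_contra q
    obtain ⟨S, S1, S2, S3⟩ := Set.Infinite.exists_subset_ncard_eq q (C' + C2 + 1)
    choose f hf using hx
    obtain ⟨t, ht⟩ := (S2.image f).bddAbove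
    obtain ⟨s, s1, s2⟩ := b4 t
    obtain ⟨F, -, h2, h3⟩ := h s
    have e1 := le s z F b2 (h2.trans (inter_subset_inter_left _ (tr_mono inter_subset_right)))
    have e2 : ((D s ∩ (w ∩ z)) ∪ S).ncard ≤ (D s ∩ z).ncard := ncard_le_ncard (by
      rintro e (he | he)
      · exact ⟨he.1, he.2.2⟩
      · exact ⟨hm ((ht ⟨e, he, rfl⟩).trans s1) (hf e), (S1 he).1⟩) (fD _ _)
    rw [ncard_union_eq (disjoint_left.2 fun e he j => (S1 j).2 he.2.1) (fD _ _) S2] at e2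
    unfold pot at s2
    simp only at h3
    omega

end Vale.Agent.P068
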