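import Vale.Agent.P068.ZW
import Vale.Agent.P068.Main

/-! The counterexample without additional set-theoretic hypotheses. -/

open Set

namespace Vale.Agent.P068

open scoped Matroid

namespace Sys

variable {ι : Type} [LinearOrder ι] [WellFoundedLT ι] {S : Sys ι}

omit [WellFoundedLT ι] in
lemma large_diff {A B : Set ℕ} (hA : ¬ S.sm A) (hB : S.sm B) : ¬ S.sm (A \ B) := fun h =>
  hA ((hB.union h).sub fun n hn => by
    by_cases q : n ∈ B
    · exact Or.inl q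
    · exact Or.inr ⟨hn, q⟩)

lemma up {x y : Set (ℕ ⊕ ℕ)} (hxy : x ⊆ y) (hx : S.Dm x) (hy : ¬ S.sm (Sum.inl ⁻¹' y)) :
    ∃ y', x ⊆ y' ∧ y' ⊆ y ∧ S.Dm y' ∧ S.NN y' := by
  obtain ⟨c, hc⟩ := S.bdd hx.2
  obtain ⟨Z, Z1, Z2, a, a1, a2⟩ := bdry (large_diff hy hx.1) c
  have e : Sum.inr ⁻¹' (x ∪ Sum.inl '' Z)ᶜ ⊆ Sum.inr ⁻¹' xᶜ := fun n hn q => hn (Or.inl q)
  refine ⟨x ∪ Sum.inl '' Z, subset_union_left, union_subset hxy ?_,
    ⟨(hx.1.union Z2).sub ?_, hx.2.sub e⟩, a, a2.hv (tr_mono fun n hn => Or.inr ⟨n, hn, rfl⟩) _ _,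
    fun b hb => ?_⟩
  · rintro _ ⟨n, hn, rfl⟩
    exact (Z1 hn).1
  · rintro n (hn | ⟨m, hm, h⟩)
    · exact Or.inl hn
    · exact Or.inr (Sum.inl_injective h ▸ hm)
  · by_contra q
    exact not_le.2 (lt_of_lt_of_le a1 hb) ((acc_of_not_q q).le ((tr_mono e).trans hc))

lemma dn {x y : Set (ℕ ⊕ ℕ)} (hxy : x ⊆ y) (hx : S.sm (Sum.inl ⁻¹' x))
    (hx' : ¬ S.sm (Sum.inr ⁻¹' xᶜ)) (hy : S.sm (Sum.inr ⁻¹' yᶜ)) :
    ∃ x', x ⊆ x' ∧ x' ⊆ y ∧ S.Dm x' ∧ ¬ S.NN x' := by
  obtain ⟨c, hc⟩ := S.bdd hx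
  obtain ⟨Z, Z1, Z2, a, a1, a2⟩ := bdry (large_diff hx' hy) c
  refine ⟨{e | Sum.elim (fun n => Sum.inl n ∈ x) (fun n => Sum.inr n ∈ y ∧ n ∉ Z) e}, ?_, ?_,
    ⟨hx, (hy.union Z2).sub fun n hn => ?_⟩, ?_⟩
  · rintro (n | n) hn
    · exact hn
    · exact ⟨hxy hn, fun q => (Z1 q).1 hn⟩
  · rintro (n | n) hn
    · exact hxy hn
    · exact hn.1
  · by_cases q : n ∈ Z
    · exact Or.inr q
    · exact Or.inl fun j => hn ⟨j, q⟩
  · rintro ⟨b, b1, b2⟩
    refine not_q ?_ (a2.hv (tr_mono ?_) _ _) (b2 a ((b1.hvy.acc.le hc).trans a1.le))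
    · exact hx
    · exact fun n hn q => q.2 hn

variable (S) in
/-- ties of the comparator -/
def Tie (X : Set (ℕ ⊕ ℕ)) : Prop := S.Dm X ∧ MinE S.Dm S.NN X

lemma cross {x y : Set (ℕ ⊕ ℕ)} (hxy : x ⊆ y) (hx : S.sm (Sum.inl ⁻¹' x))
    (hx' : S.sm (Sum.inr ⁻¹' xᶜ) → ¬ S.NN x) (hy : S.sm (Sum.inr ⁻¹' yᶜ))
    (hy' : S.sm (Sum.inl ⁻¹' y) → S.NN y) : ∃ z, S.Tie z ∧ x ⊆ z ∧ z ⊆ y := by
  obtain ⟨x', a1, a2, a3, a4⟩ : ∃ x', x ⊆ x' ∧ x' ⊆ y ∧ S.Dm x' ∧ ¬ S.NN x' := by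
    by_cases q : S.sm (Sum.inr ⁻¹' xᶜ)
    · exact ⟨x, subset_rfl, hxy, ⟨hx, q⟩, hx' q⟩
    · exact dn hxy hx q hy
  obtain ⟨y', b1, b2, b3, b4⟩ : ∃ y', x' ⊆ y' ∧ y' ⊆ y ∧ S.Dm y' ∧ S.NN y' := by
    by_cases q : S.sm (Sum.inl ⁻¹' y)
    · exact ⟨y, a2, subset_rfl, ⟨q, hy⟩, hy' q⟩
    · exact up a2 a3 q
  obtain ⟨z, c1, c2, c3⟩ := mep_nn.min x' y' a3 b3 b1 a4 b4
  exact ⟨z, ⟨cvx x' y' z a3 b3 c1 c2, c3⟩, a1.trans c1, c2.trans b2⟩

omit [WellFoundedLT ι] in
lemma sm_empty : S.sm ∅ := sm_fin finite_empty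

omit [WellFoundedLT ι] in
lemma not_sm_univ : ¬ S.sm univ := by simpa using (sm_empty (S := S)).not_compl

lemma above {x : Set (ℕ ⊕ ℕ)} (hx : S.sm (Sum.inl ⁻¹' x))
    (hx' : S.sm (Sum.inr ⁻¹' xᶜ) → ¬ S.NN x) : ∃ z, S.Tie z ∧ x ⊆ z := by
  obtain ⟨z, h1, h2, -⟩ := cross (subset_univ x) hx hx' (by simpa using sm_empty)
    fun q => absurd q not_sm_univ
  exact ⟨z, h1, h2⟩

lemma below {y : Set (ℕ ⊕ ℕ)} (hy : S.sm (Sum.inr ⁻¹' yᶜ))
    (hy' : S.sm (Sum.inl ⁻¹' y) → S.NN y) : ∃ z, S.Tie z ∧ z ⊆ y := by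
  obtain ⟨z, h1, -, h2⟩ := cross (empty_subset y) sm_empty
    (fun q => absurd (by simpa using q) not_sm_univ) hy hy'
  exact ⟨z, h1, h2⟩

lemma half {L U : Set (ℕ ⊕ ℕ)} (h : L ⊆ U) (hL : S.sm (Sum.inl ⁻¹' L))
    (hU : S.sm (Sum.inr ⁻¹' Uᶜ)) : ∃ B, S.Tie B ∧ (U ⊆ B ∨ B ⊆ L ∨ (L ⊆ B ∧ B ⊆ U)) := by
  by_cases p : S.sm (Sum.inr ⁻¹' Lᶜ) → ¬ S.NN L
  · by_cases q : S.sm (Sum.inl ⁻¹' U) → S.NN U
    · obtain ⟨z, h1, h2⟩ := cross h hL p hU q
      exact ⟨z, h1, Or.inr (Or.inr h2)⟩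
    · push Not at q
      obtain ⟨z, h1, h2⟩ := above q.1 fun _ => q.2
      exact ⟨z, h1, Or.inl h2⟩
  · push Not at p
    obtain ⟨z, h1, h2⟩ := below p.1 fun _ => p.2
    exact ⟨z, h1, Or.inr (Or.inl h2)⟩

omit [WellFoundedLT ι] in
lemma as_pre {f : ℕ → ℕ ⊕ ℕ} (hf : Function.Injective f) {X Y : Set (ℕ ⊕ ℕ)} (h : AS X Y) :
    AS (f ⁻¹' X) (f ⁻¹' Y) := (Finite.preimage (f := f) hf.injOn h).subset fun _ hn => hn

theorem exists_ties : ∃ W : UFam (ℕ ⊕ ℕ), ∀ X, W.base X →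
    ∃ B, (S.Tie B ∨ S.Tie Bᶜ) ∧ AS B X ∧ AS X B := by
  refine exists_ufam {B | S.Tie B ∨ S.Tie Bᶜ} ?_ fun L U h => ?_
  · rintro B (h | h) B' (h' | h') a
    · exact h'.2.2 B h.1 a h.2.1
    · exact absurd h.1.2 (sm.not_compl ((by simpa using h'.1.2 : S.sm (Sum.inr ⁻¹' B')).mono
        (as_pre Sum.inr_injective a)))
    · exact absurd h.1.1 (sm.not_compl (h'.1.1.mono (as_pre Sum.inl_injective a)))
    · simpa using (h.2.2 B'ᶜ h'.1 a.compl h'.2.1).compl
  · by_cases l1 : S.sm (Sum.inl ⁻¹' L)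
    · by_cases u2 : S.sm (Sum.inr ⁻¹' Uᶜ)
      · obtain ⟨B, h1, h2⟩ := half h l1 u2
        exact ⟨B, Or.inl h1, h2⟩
      · by_cases u1 : S.sm (Sum.inl ⁻¹' U)
        · obtain ⟨B, h1, h2⟩ := above u1 fun q => absurd q u2
          exact ⟨B, Or.inl h1, Or.inl h2⟩
        · obtain ⟨B, h1, h2⟩ := half (compl_subset_compl.2 h) (sm_compl u1)
            ((sm_compl u2).sub fun n hn q => q (h (not_not.1 hn)))
          refine ⟨Bᶜ, Or.inr (by simpa using h1), ?_⟩
          rcases h2 with h | h | h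
          · exact Or.inr (Or.inl (compl_subset_comm.1 h))
          · exact Or.inl (subset_compl_comm.1 h)
          · exact Or.inr (Or.inr ⟨subset_compl_comm.1 h.2, compl_subset_comm.1 h.1⟩)
    · by_cases l2 : S.sm (Sum.inr ⁻¹' Lᶜ)
      · obtain ⟨B, h1, h2⟩ := below l2 fun q => absurd q l1
        exact ⟨B, Or.inl h1, Or.inr (Or.inl h2)⟩
      · obtain ⟨B, h1, h2⟩ := half (compl_subset_compl.2 h)
          ((sm_compl l1).sub fun n hn q => hn (h q))
          ((sm_compl l2).sub fun n hn q => q (not_not.1 hn))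
        refine ⟨Bᶜ, Or.inr (by simpa using h1), ?_⟩
        rcases h2 with h | h | h
        · exact Or.inr (Or.inl (compl_subset_comm.1 h))
        · exact Or.inl (subset_compl_comm.1 h)
        · exact Or.inr (Or.inr ⟨subset_compl_comm.1 h.2, compl_subset_comm.1 h.1⟩)

lemma exists_rk : ∃ r : Set ℕ → ι, ∀ X, S.Dm X → S.NN X →
    r (Sum.inr ⁻¹' Xᶜ) < r (Sum.inl ⁻¹' X) := by
  have : ∀ A : Set ℕ, ∃ r : ι, S.sm A → (∀ a, S.Hvy (tr S.V A) a → a < r) ∧
      ∀ u, (∀ a, S.Hvy (tr S.V A) a → a < u) → r ≤ u := by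
    intro A
    obtain ⟨c0, -⟩ := S.bdd countable_empty
    by_cases h : S.sm A
    · obtain ⟨c, hc⟩ := S.bdd h
      obtain ⟨d, hd⟩ := S.bdd (countable_singleton c)
      obtain ⟨r, h1, h2⟩ := (wellFounded_lt (α := ι)).has_min
        {u | ∀ a, S.Hvy (tr S.V A) a → a < u}
        ⟨d, fun a ha => lt_of_le_of_lt (ha.acc.le hc) (hd rfl)⟩
      exact ⟨r, fun _ => ⟨h1, fun u hu => not_lt.1 (h2 u hu)⟩⟩
    · exact ⟨c0, fun q => absurd q h⟩
  choose r hr using this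
  refine ⟨r, ?_⟩
  rintro X hX ⟨a, h1, h2⟩
  refine lt_of_le_of_lt ((hr _ hX.2).2 a fun b hb => ?_) ((hr _ hX.1).1 a h1.hvy)
  by_contra q
  exact not_q hX.1 hb (h2 b (not_lt.1 q))

lemma key {B X : Set (ℕ ⊕ ℕ)} (hB : S.Tie B ∨ S.Tie Bᶜ) (h : AS B X)
    (hX : S.sm (Sum.inl ⁻¹' X)) : S.Dm X ∧ S.NN X := by
  rcases hB with hB | hB
  · have d : S.Dm X := ⟨hX, hB.1.2.mono (as_pre Sum.inr_injective h.compl)⟩
    exact ⟨d, mep_nn.mono B X hB.1 d h hB.2.1⟩
  · exact absurd hB.1.1 (sm.not_compl (hX.mono (as_pre Sum.inl_injective h)))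

end Sys

theorem exists_W' : ∃ (R : Type) (_ : LinearOrder R) (_ : WellFoundedLT R)
    (p : Set ℕ → R ⊕ R) (W : UFam (ℕ ⊕ ℕ)), (∃ r, p ∅ = Sum.inl r) ∧ (∃ r, p Set.univ = Sum.inr r) ∧
    (∀ J J' a, W.spn (enc J J') → p J = Sum.inl a → ∃ b < a, p J' = Sum.inl b) ∧
    (∀ J J' a, W.ind (enc J J') → p J = Sum.inr a → ∃ b < a, p J' = Sum.inr b) := by
  classical
  obtain ⟨ι, i1, i2, ⟨S⟩⟩ := exists_sys
  obtain ⟨W, hW⟩ := S.exists_ties
  obtain ⟨r, hr⟩ := S.exists_rk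
  refine ⟨ι, i1, i2, fun A => if S.sm A then Sum.inl (r A) else Sum.inr (r Aᶜ), W,
    ⟨_, if_pos Sys.sm_empty⟩, ⟨_, if_neg Sys.not_sm_univ⟩, ?_, ?_⟩
  · rintro J J' a ⟨X, hX, hs⟩ ha
    simp only at ha ⊢
    obtain ⟨B, h1, h2, -⟩ := hW X hX
    by_cases q : S.sm J
    · rw [if_pos q] at ha
      obtain ⟨d, n⟩ := Sys.key h1 (h2.trans (AS.of_subset hs)) q
      have e : Sum.inr ⁻¹' (enc J J')ᶜ = J' := by ext n; simp [enc]
      have l := hr _ d n
      have d2 := d.2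
      rw [e] at l d2
      exact ⟨r J', Sum.inl_injective ha ▸ l, if_pos d2⟩
    · rw [if_neg q] at ha
      cases ha
  · rintro J J' a ⟨X, hX, hs⟩ ha
    simp only at ha ⊢
    obtain ⟨B, h1, -, h2⟩ := hW X hX
    by_cases q : S.sm J
    · rw [if_pos q] at ha
      cases ha
    · rw [if_neg q] at ha
      obtain ⟨d, n⟩ := Sys.key (B := Bᶜ) (by simpa using h1.symm)
        ((AS.of_subset hs).trans h2).compl (Sys.sm_compl q)
      have e : Sum.inr ⁻¹' (enc J J')ᶜᶜ = J'ᶜ := by ext n; simp [enc]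
      have l := hr _ d n
      have d2 := d.2
      rw [e] at l d2
      exact ⟨r J'ᶜ, Sum.inr_injective ha ▸ l, if_neg fun j => Sys.sm.not_compl j d2⟩

/-- The vertex families along the double ray admit no good orientation. -/
theorem exists_V' : ∃ V : ℤ → UFam (ℕ ⊕ ℕ), ∀ (J : ℤ → Set ℕ) (t : ℤ → Prop),
    (∀ k, t (k + 1) → (V (k + 1)).spn (enc (J k) (J (k + 1)))) →
    (∀ k, ¬ t (k + 1) → (V (k + 1)).ind (enc (J k) (J (k + 1)))) →
    (∀ k, t k → ¬ t (k + 1) → J k = Set.univ) → (∀ k, ¬ t k → t (k + 1) → J k = ∅) → False := by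
  obtain ⟨R, i1, i2, p, W, ⟨r0, h0⟩, ⟨r1, h1⟩, hs, hi⟩ := exists_W'
  refine ⟨fun k => if 1 ≤ k then W else W.dual.comap (Equiv.sumComm ℕ ℕ), ?_⟩
  intro J t hP hC e1 e2
  have R1 : ∀ a k, 0 ≤ k → p (J k) = Sum.inl a → t (k + 1) → False := by
    intro a
    induction a using WellFoundedLT.induction with
    | ind a ih =>
      intro k hk ha ht
      have := hP k ht
      simp only [show 1 ≤ k + 1 by omega, if_true] at this
      obtain ⟨b, hb, e⟩ := hs _ _ _ this ha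
      by_cases h2 : t (k + 1 + 1)
      · exact ih b hb (k + 1) (by omega) e h2
      · rw [e1 _ ht h2, h1] at e; cases e
  have R2 : ∀ a k, 0 ≤ k → p (J k) = Sum.inr a → ¬ t (k + 1) → False := by
    intro a
    induction a using WellFoundedLT.induction with
    | ind a ih =>
      intro k hk ha ht
      have := hC k ht
      simp only [show 1 ≤ k + 1 by omega, if_true] at this
      obtain ⟨b, hb, e⟩ := hi _ _ _ this ha
      by_cases h2 : t (k + 1 + 1)
      · rw [e2 _ ht h2, h0] at e; cases e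
      · exact ih b hb (k + 1) (by omega) e h2
  have L1 : ∀ a k, k + 1 ≤ 0 → p (J (k + 1)) = Sum.inl a → ¬ t (k + 1) → False := by
    intro a
    induction a using WellFoundedLT.induction with
    | ind a ih =>
      intro k hk ha ht
      have := hC k ht
      simp only [show ¬ 1 ≤ k + 1 by omega, if_false] at this
      have := UFam.dual_ind.1 (UFam.comap_ind this)
      rw [swap_enc] at this
      obtain ⟨b, hb, e⟩ := hs _ _ _ this ha
      by_cases h2 : t k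
      · rw [e1 _ h2 ht, h1] at e; cases e
      · exact ih b hb (k - 1) (by omega) (by simpa using e) (by simpa using h2)
  have L2 : ∀ a k, k + 1 ≤ 0 → p (J (k + 1)) = Sum.inr a → t (k + 1) → False := by
    intro a
    induction a using WellFoundedLT.induction with
    | ind a ih =>
      intro k hk ha ht
      have := hP k ht
      simp only [show ¬ 1 ≤ k + 1 by omega, if_false] at this
      have := UFam.dual_spn.1 (UFam.comap_spn this)
      rw [swap_enc] at this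
      obtain ⟨b, hb, e⟩ := hi _ _ _ this ha
      by_cases h2 : t k
      · exact ih b hb (k - 1) (by omega) (by simpa using e) (by simpa using h2)
      · rw [e2 _ h2 ht, h0] at e; cases e
  rcases hJ : p (J 0) with a | a
  · have a1 : ¬ t (0 + 1) := fun h => R1 a 0 le_rfl hJ h
    have a2 : t 0 := by
      by_contra h
      exact L1 a (-1) (by omega) (by simpa using hJ) (by simpa using h)
    rw [e1 0 a2 a1, h1] at hJ; cases hJ
  · have a1 : t (0 + 1) := by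
      by_contra h
      exact R2 a 0 le_rfl hJ h
    have a2 : ¬ t 0 := fun h => L2 a (-1) (by omega) (by simpa using hJ) (by simpa using h)
    rw [e2 0 a2 a1, h0] at hJ; cases hJ

theorem not_pc' : ∃ M : Fin 2 → Matroid (ℤ × ℕ), (∀ i, (M i).E = Set.univ) ∧
    ¬ HasPackingCoveringPartition M := by
  obtain ⟨V, hV⟩ := exists_V'
  choose M hE hM using exists_sum V
  refine ⟨fun i => M (i : ℕ), fun i => hE _, ?_⟩
  rintro ⟨P, C, hd, hu, S, I, hSP, hIC, hSS, hS, hI, hcov⟩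
  let par : ℤ → Fin 2 := fun k => ⟨(k % 2).toNat, by omega⟩
  have hpar : ∀ k, k % 2 = ((par k : ℕ) : ℤ) % 2 := by
    intro k; simp only [par]; omega
  have hne : ∀ k, par k ≠ par (k + 1) := by
    intro k h
    have := congrArg Fin.val h
    simp only [par] at this
    omega
  have hcov' : ∀ k e, e ∈ C → e ∈ I (par k) ∨ e ∈ I (par (k + 1)) := by
    intro k e he
    rw [← hcov] at he
    obtain ⟨i, hi⟩ := mem_iUnion.1 he
    have := hne k
    by_cases h : i = par k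
    · exact Or.inl (h ▸ hi)
    · have : i = par (k + 1) := by omega
      exact Or.inr (this ▸ hi)
  have hPC : ∀ e, e ∈ P ∨ e ∈ C := fun e => (hu ▸ trivial : e ∈ P ∪ C)
  have A := fun k => pack_side (hE _) (hM _) (hSP (par k)) (hS (par k)) (hpar k)
  have B := fun k => cover_side (hE _) (hM _) hd hu (hI (par k)) (hpar k)
  refine hV (fun k => {n | (k, n) ∈ S (par (k + 1)) ∨ (k, n) ∈ I (par (k + 1))})
    (fun k => ¬ (V k).ind (emb k ⁻¹' P)) ?_ ?_ ?_ ?_
  · intro k ht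
    refine ((A _).1 ht).mono ?_
    rintro (n | n) hn
    · simp only [emb, mem_preimage, Sum.elim_inl, add_sub_cancel_right] at hn
      exact Or.inl hn
    · simp only [emb, mem_preimage, Sum.elim_inr] at hn
      rintro (h | h)
      · exact disjoint_left.1 (hSS _ _ (hne _)) hn h
      · exact disjoint_left.1 hd (hSP _ hn) (hIC _ h)
  · intro k ht
    refine ((B _).2 (not_not.1 ht)).mono ?_
    rintro (n | n) hn
    · simp only [emb, mem_preimage, Sum.elim_inl, add_sub_cancel_right]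
      rcases hn with h | h
      · exact Or.inr (hSP _ h)
      · exact Or.inl h
    · simp only [emb, mem_preimage, Sum.elim_inr]
      rcases hPC (k + 1, n) with h | h
      · exact Or.inr h
      · rcases hcov' (k + 1) _ h with h | h
        · exact Or.inl h
        · exact absurd (Or.inr h) hn
  · intro k h1 h2
    rw [eq_univ_iff_forall]
    intro n
    rcases hPC (k, n) with h | h
    · have := (A _).2 (not_not.1 h2)
        (show Sum.inl n ∈ emb (k + 1) ⁻¹' P by simpa [emb] using h)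
      exact Or.inl (by simpa [emb] using this)
    · rcases hcov' k _ h with h | h
      · have := (B _).1 h1
        exact absurd (show Sum.inr n ∈ emb k ⁻¹' I (par k) from h) (this ▸ notMem_empty _)
      · exact Or.inr h
  · intro k h1 h2
    rw [eq_empty_iff_forall_notMem]
    rintro n (h | h)
    · have := (A _).2 (not_not.1 h1) (show Sum.inr n ∈ emb k ⁻¹' P from hSP _ h)
      exact disjoint_left.1 (hSS _ _ (hne _)) this h
    · have := (B _).1 h2
      exact absurd (show Sum.inl n ∈ emb (k + 1) ⁻¹' I (par (k + 1)) by simpa [emb] using h)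
        (this ▸ notMem_empty _)

theorem not_inter' : ∃ M N : Matroid (ℤ × ℕ), M.E = Set.univ ∧ N.E = Set.univ ∧
    ¬ SatisfiesIntersection M N := by
  obtain ⟨V, hV⟩ := exists_V'
  obtain ⟨M, hE, hM⟩ := exists_sum V 0
  obtain ⟨N, hE', hN⟩ := exists_sum (fun k => (V k).dual) 1
  refine ⟨M, N, hE, hE', ?_⟩
  rintro ⟨JM, JN, hd, h1, h2, hu⟩
  have hcl : ∀ e, e ∈ M.closure JM ∨ e ∈ N.closure JN := fun e =>
    (hu ▸ mem_univ e : e ∈ M.closure JM ∪ N.closure JN)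
  have iM := h1.subset subset_union_left
  have iN := h2.subset subset_union_right
  have cM : ∀ k, k % 2 = 0 % 2 → ¬ (V k).spn (emb k ⁻¹' JM) → ∀ x, emb k x ∈ M.closure JM →
      emb k x ∈ JM := fun k hk hs x hx =>
    (trace_closure hE hM iM hk hx).resolve_right fun h =>
      hs (UFam.spn_of_insert ((hM _).1 iM k hk) h)
  have cN : ∀ k, k % 2 = 1 % 2 → ¬ (V k).dual.spn (emb k ⁻¹' JN) → ∀ x, emb k x ∈ N.closure JN →
      emb k x ∈ JN := fun k hk hs x hx =>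
    (trace_closure hE' hN iN hk hx).resolve_right fun h =>
      hs (UFam.spn_of_insert ((hN _).1 iN k hk) h)
  have fM : ∀ k, k % 2 = 0 % 2 → (V k).spn (emb k ⁻¹' JM) → ∀ x, emb k x ∈ JM ∪ JN →
      emb k x ∈ JM := fun k hk hs x hx =>
    UFam.eq_of_spn_ind hs ((hM _).1 h1 k hk) (preimage_mono subset_union_left) hx
  have fN : ∀ k, k % 2 = 1 % 2 → (V k).dual.spn (emb k ⁻¹' JN) → ∀ x, emb k x ∈ JM ∪ JN →
      emb k x ∈ JN := fun k hk hs x hx =>
    UFam.eq_of_spn_ind hs ((hN _).1 h2 k hk) (preimage_mono subset_union_right) hx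
  let J : ℤ → Set ℕ := fun k => {n | k % 2 = 1 ↔ (k, n) ∈ JM ∪ JN}
  have e0 : ∀ k, k % 2 = 1 → enc (J k) (J (k + 1)) = emb (k + 1) ⁻¹' (JM ∪ JN) := by
    intro k hk
    have : ¬ (k + 1) % 2 = 1 := by omega
    ext (n | n) <;> simp [enc, J, emb, hk, this, or_iff_not_imp_left]
  have e1 : ∀ k, k % 2 = 0 → enc (J k) (J (k + 1)) = (emb (k + 1) ⁻¹' (JM ∪ JN))ᶜ := by
    intro k hk
    have : (k + 1) % 2 = 1 := by omega
    ext (n | n) <;> simp [enc, J, emb, hk, this]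
  refine hV J (fun k => if k % 2 = 0 then (V k).spn (emb k ⁻¹' JM)
    else ¬ (V k).dual.spn (emb k ⁻¹' JN)) ?_ ?_ ?_ ?_
  · intro k ht
    by_cases hk : k % 2 = 1
    · rw [if_pos (by omega)] at ht
      rw [e0 k hk]
      exact ht.mono (preimage_mono subset_union_left)
    · rw [e1 k (by omega)]
      exact UFam.dual_ind.1 ((hN _).1 h2 (k + 1) (by omega))
  · intro k ht
    by_cases hk : k % 2 = 1
    · rw [e0 k hk]
      exact (hM _).1 h1 (k + 1) (by omega)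
    · rw [if_neg (by omega), not_not] at ht
      rw [e1 k (by omega)]
      exact UFam.dual_spn.1 (ht.mono (preimage_mono subset_union_right))
  · intro k t1 t2
    rw [eq_univ_iff_forall]
    intro n
    by_cases hk : k % 2 = 1
    · rw [if_neg (by omega)] at t1
      rw [if_pos (by omega)] at t2
      refine ⟨fun _ => ?_, fun _ => hk⟩
      rcases hcl (k, n) with h | h
      · have := cM (k + 1) (by omega) t2 (Sum.inl n) (by simpa [emb] using h)
        exact Or.inl (by simpa [emb] using this)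
      · exact Or.inr (cN k (by omega) t1 (Sum.inr n) h)
    · rw [if_pos (by omega)] at t1
      rw [if_neg (by omega), not_not] at t2
      refine ⟨fun h => absurd h hk, fun h => ?_⟩
      have a1 := fM k (by omega) t1 (Sum.inr n) h
      have a2 := fN (k + 1) (by omega) t2 (Sum.inl n) (by simpa [emb] using h)
      exact (disjoint_left.1 hd a1 (by simpa [emb] using a2)).elim
  · intro k t1 t2
    rw [eq_empty_iff_forall_notMem]
    intro n hn
    by_cases hk : k % 2 = 1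
    · rw [if_neg (by omega), not_not] at t1
      rw [if_pos (by omega)] at t2
      have h : (k, n) ∈ JM ∪ JN := hn.1 hk
      have a1 := fN k (by omega) t1 (Sum.inr n) h
      have a2 := fM (k + 1) (by omega) t2 (Sum.inl n) (by simpa [emb] using h)
      exact disjoint_left.1 hd (by simpa [emb] using a2) a1
    · rw [if_pos (by omega)] at t1
      rw [if_neg (by omega)] at t2
      refine hk (hn.2 ?_)
      rcases hcl (k, n) with h | h
      · exact Or.inl (cM k (by omega) t1 (Sum.inr n) h)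
      · have := cN (k + 1) (by omega) t2 (Sum.inl n) (by simpa [emb] using h)
        exact Or.inr (by simpa [emb] using this)

end Vale.Agent.P068
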