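import Vale.Agent.P068.Uniform

/-! Upward closed families with minimal elements modulo finite sets. -/

open Set

namespace Vale.Agent.P068

variable {α : Type*}

/-- `z` is a minimal member of `N` inside the domain `D`, modulo finite sets -/
def MinE (D N : Set α → Prop) (z : Set α) : Prop :=
  N z ∧ ∀ w, D w → AS w z → N w → AS z w

/-- the minimal element property -/
structure Mep (D N : Set α → Prop) : Prop where
  mono : ∀ x y, D x → D y → AS x y → N x → N y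
  min : ∀ x y, D x → D y → x ⊆ y → ¬ N x → N y → ∃ z, x ⊆ z ∧ z ⊆ y ∧ MinE D N z

/-- convex domains -/
def Cvx (D : Set α → Prop) : Prop := ∀ x y z, D x → D y → x ⊆ z → z ⊆ y → D z

lemma Mep.restrict {N : Set α → Prop} (h : Mep (fun _ => True) N) (D : Set α → Prop) :
    Mep D N where
  mono x y _ _ := h.mono x y trivial trivial
  min x y _ _ hxy hx hy := by
    obtain ⟨z, h1, h2, h3, h4⟩ := h.min x y trivial trivial hxy hx hy
    exact ⟨z, h1, h2, h3, fun w _ => h4 w trivial⟩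

lemma Mep.imp {D N : Set α → Prop} (h : Mep D N) (p : Prop) : Mep D (fun x => p → N x) where
  mono x y dx dy hxy hx hp := h.mono x y dx dy hxy (hx hp)
  min x y dx dy hxy hx hy := by
    have hp : p := by
      by_contra hp
      exact hx fun q => absurd q hp
    obtain ⟨z, h1, h2, h3, h4⟩ := h.min x y dx dy hxy (fun q => hx fun _ => q) (hy hp)
    exact ⟨z, h1, h2, fun _ => h3, fun w dw hw q => h4 w dw hw (q hp)⟩

lemma Mep.and {D N N' : Set α → Prop} (hD : Cvx D) (h : Mep D N) (h' : Mep D N') :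
    Mep D (fun x => N x ∧ N' x) where
  mono x y dx dy hxy hx := ⟨h.mono x y dx dy hxy hx.1, h'.mono x y dx dy hxy hx.2⟩
  min x y dx dy hxy hx hy := by
    have key : ∀ {N N' : Set α → Prop}, Mep D N → Mep D N' → ¬ N x → N y → N' y →
        ∃ z, x ⊆ z ∧ z ⊆ y ∧ N z ∧ N' z ∧ ∀ w, D w → AS w z → N w → N' w → AS z w := by
      intro N N' h h' a b c
      obtain ⟨z, h1, h2, h3, h4⟩ := h.min x y dx dy hxy a b
      have dz := hD x y z dx dy h1 h2
      by_cases q : N' z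
      · exact ⟨z, h1, h2, h3, q, fun w dw hw a _ => h4 w dw hw a⟩
      · obtain ⟨v, g1, g2, g3, g4⟩ := h'.min z y dz dy h2 q c
        exact ⟨v, h1.trans g1, g2, h.mono z v dz (hD z y v dz dy g1 g2) (AS.of_subset g1) h3, g3,
          fun w dw hw _ a => g4 w dw hw a⟩
    by_cases q : N x
    · obtain ⟨z, h1, h2, h3, h4, h5⟩ := key h' h (fun a => hx ⟨q, a⟩) hy.2 hy.1
      exact ⟨z, h1, h2, ⟨h4, h3⟩, fun w dw hw a => h5 w dw hw a.2 a.1⟩
    · obtain ⟨z, h1, h2, h3, h4, h5⟩ := key h h' q hy.1 hy.2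
      exact ⟨z, h1, h2, ⟨h3, h4⟩, fun w dw hw a => h5 w dw hw a.1 a.2⟩

lemma Mep.ex {ι : Type*} [LinearOrder ι] [WellFoundedLT ι] {D : Set α → Prop}
    {N : ι → Set α → Prop} (hD : Cvx D) (h : ∀ a, Mep D (N a))
    (hm : ∀ x, D x → ∀ a, N a x → ∃ a, N a x ∧ ∀ b, N b x → b ≤ a) :
    Mep D (fun x => ∃ a, N a x) where
  mono x y dx dy hxy := fun ⟨a, ha⟩ => ⟨a, (h a).mono x y dx dy hxy ha⟩
  min x y dx dy hxy hx := by
    rintro ⟨a0, ha0⟩
    obtain ⟨a1, ha1⟩ := hm y dy a0 ha0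
    obtain ⟨a, ⟨z, h1, h2, h3, h4⟩, hmin⟩ := (wellFounded_lt (α := ι)).has_min
      {a | ∃ z, x ⊆ z ∧ z ⊆ y ∧ N a z ∧ ∀ b, N b z → b ≤ a} ⟨a1, y, hxy, subset_rfl, ha1⟩
    have dz := hD x y z dx dy h1 h2
    obtain ⟨v, g1, g2, g3, g4⟩ := (h a).min x z dx dz h1 (fun q => hx ⟨a, q⟩) h3
    have dv := hD x z v dx dz g1 g2
    refine ⟨v, g1, g2.trans h2, ⟨a, g3⟩, ?_⟩
    rintro w dw hw ⟨b, hb⟩
    obtain ⟨u, k1, k2, k3, k4⟩ := (h b).min x v dx dv g1 (fun q => hx ⟨b, q⟩)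
      ((h b).mono w v dw dv hw hb)
    have du := hD x v u dx dv k1 k2
    by_cases q : AS v u
    · exact q.trans (k4 w dw (hw.trans q) hb)
    · exfalso
      obtain ⟨c, c1, c2⟩ := hm u du b k3
      have c3 : c ≤ a := h4 c ((h c).mono u z du dz (AS.of_subset (k2.trans g2)) c1)
      refine hmin c ⟨u, k1, k2.trans (g2.trans h2), c1, c2⟩ (lt_of_le_of_ne c3 ?_)
      rintro rfl
      exact q (g4 u du (AS.of_subset k2) c1)

lemma Mep.all {ι : Type*} [LinearOrder ι] [WellFoundedLT ι] {D : Set α → Prop}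
    {N : ι → Set α → Prop} (hD : Cvx D) (h : ∀ a, Mep D (N a))
    (hm : ∀ x, D x → ∀ a, ¬ N a x → ∃ a, ¬ N a x ∧ ∀ b, ¬ N b x → b ≤ a) :
    Mep D (fun x => ∀ a, N a x) where
  mono x y dx dy hxy hx a := (h a).mono x y dx dy hxy (hx a)
  min x y dx dy hxy hx hy := by
    obtain ⟨a0, ha0⟩ := not_forall.1 hx
    obtain ⟨a1, ha1⟩ := hm x dx a0 ha0
    obtain ⟨a, ⟨z, h1, h2, h3, h4⟩, hmin⟩ := (wellFounded_lt (α := ι)).has_min
      {a | ∃ z, x ⊆ z ∧ z ⊆ y ∧ ¬ N a z ∧ ∀ b, ¬ N b z → b ≤ a} ⟨a1, x, subset_rfl, hxy, ha1⟩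
    have dz := hD x y z dx dy h1 h2
    obtain ⟨v, g1, g2, g3, g4⟩ := (h a).min z y dz dy h2 h3 (hy a)
    have dv := hD z y v dz dy g1 g2
    refine ⟨v, h1.trans g1, g2, ?_, fun w dw hw q => g4 w dw hw (q a)⟩
    by_contra q
    obtain ⟨b, hb⟩ := not_forall.1 q
    obtain ⟨c, c1, c2⟩ := hm v dv b hb
    have c3 : c ≤ a := h4 c fun q => c1 ((h c).mono z v dz dv (AS.of_subset g1) q)
    refine hmin c ⟨v, h1.trans g1, g2, c1, c2⟩ (lt_of_le_of_ne c3 ?_)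
    rintro rfl
    exact c1 g3

/-- strictly above a member of `N` -/
def Hi (N : Set α → Prop) (y : Set α) : Prop := ∃ w, AS w y ∧ N w ∧ ¬ AS y w

lemma Mep.dual {N : Set α → Prop} (h : Mep (fun _ => True) N) :
    Mep (fun _ => True) (fun x => ¬ Hi N xᶜ) where
  mono x y _ _ hxy hx := by
    rintro ⟨w, h1, h2, h3⟩
    exact hx ⟨w, h1.trans hxy.compl, h2, fun q => h3 (hxy.compl.trans q)⟩
  min x y _ _ hxy hx hy := by
    have key : ∀ v, N v → ¬ Hi N v → MinE (fun _ => True) (fun x => ¬ Hi N xᶜ) vᶜ := by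
      intro v h1 h2
      refine ⟨by simpa using h2, fun w _ hw q => ?_⟩
      by_contra k
      refine q ⟨v, by simpa using hw.compl, h1, fun j => k ?_⟩
      simpa using j.compl
    by_cases q : N yᶜ
    · exact ⟨y, hxy, subset_rfl, by simpa using key _ q hy⟩
    · obtain ⟨w, h1, h2, -⟩ := not_not.1 hx
      obtain ⟨v, g1, g2, g3, g4⟩ := h.min yᶜ xᶜ trivial trivial (compl_subset_compl.2 hxy) q
        (h.mono w _ trivial trivial h1 h2)
      refine ⟨vᶜ, subset_compl_comm.1 g2, compl_subset_comm.1 g1, key v g3 ?_⟩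
      rintro ⟨u, k1, k2, k3⟩
      exact k3 (g4 u trivial k1 k2)

lemma bal_anti {B X Y : Set α} (hX : Bal B X) (hY : Bal B Y) (hs : X ⊆ Y) : X = Y := by
  obtain ⟨f, e⟩ := idx_sub hs hY.1 hX.2.1
  rw [hX.2.2, hY.2.2] at e
  have : (Y \ X).ncard = 0 := by omega
  rw [ncard_eq_zero f, sdiff_eq_empty] at this
  exact hs.antisymm this

lemma bal_exch {B X : Set α} {a b : α} (hX : Bal B X) (ha : a ∈ X) (hb : b ∉ X) :
    Bal B (insert b (X \ {a})) := by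
  have a1 : AS B (X \ {a}) := by
    have := hX.2.1
    unfold AS at *
    refine (this.union (finite_singleton a)).subset ?_
    intro z hz
    by_cases hzF : z ∈ ({a} : Set α)
    · exact Or.inr hzF
    · exact Or.inl ⟨hz.1, fun hx => hz.2 ⟨hx, hzF⟩⟩
  have e := (idx_sub (B := B) (X := X \ {a}) (Y := X) sdiff_subset hX.1 a1).2
  rw [sdiff_sdiff_cancel_left (singleton_subset_iff.2 ha), ncard_singleton, hX.2.2] at e
  rw [insert_eq, union_comm]
  refine bal_add ((AS.of_subset sdiff_subset).trans hX.1) a1 ?_ (finite_singleton b) ?_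
  · rw [disjoint_singleton_left]; exact fun h => hb h.1
  · rw [ncard_singleton]; omega

lemma bal_inter_of_as' {B L U : Set α} (hLU : L ⊆ U) (h : AS B L) :
    ∃ X, Bal B X ∧ (U ⊆ X ∨ X ⊆ L ∨ (L ⊆ X ∧ X ⊆ U)) := by
  obtain ⟨X, hX, h⟩ := bal_inter_of_as (compl_subset_compl.2 hLU) h.compl
  refine ⟨Xᶜ, by simpa using hX.compl, ?_⟩
  rcases h with h | h | h
  · exact Or.inr (Or.inl (compl_subset_comm.1 h))
  · exact Or.inl (subset_compl_comm.1 h)
  · exact Or.inr (Or.inr ⟨subset_compl_comm.1 h.2, compl_subset_comm.1 h.1⟩)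

/-- a uniform family whose bases are finite modifications of the given ties -/
theorem exists_ufam (𝓣 : Set (Set α)) (h1 : ∀ B ∈ 𝓣, ∀ B' ∈ 𝓣, AS B B' → AS B' B)
    (h2 : ∀ L U, L ⊆ U → ∃ B ∈ 𝓣, U ⊆ B ∨ B ⊆ L ∨ (L ⊆ B ∧ B ⊆ U)) :
    ∃ W : UFam α, ∀ X, W.base X → ∃ B ∈ 𝓣, AS B X ∧ AS X B := by
  let r : Setoid (Set α) := ⟨fun A B => AS A B ∧ AS B A, fun A => ⟨AS.refl A, AS.refl A⟩,
    fun h => ⟨h.2, h.1⟩, fun h k => ⟨h.1.trans k.1, k.2.trans h.2⟩⟩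
  let rep : Set α → Set α := fun A => (Quotient.mk r A).out
  have r1 : ∀ A, AS (rep A) A ∧ AS A (rep A) := fun A => Quotient.mk_out (s := r) A
  have r2 : ∀ A B, AS A B → AS B A → rep A = rep B := fun A B p q => by
    simp only [rep]
    rw [Quotient.sound (s := r) ⟨p, q⟩]
  refine ⟨⟨fun X => ∃ B ∈ 𝓣, Bal (rep B) X, ?_, ?_, ?_⟩, ?_⟩
  · rintro X Y ⟨B, hB, hX⟩ ⟨B', hB', hY⟩ hs
    have p : AS B B' := (r1 B).2.trans
      (hX.2.1.trans ((AS.of_subset hs).trans (hY.1.trans (r1 B').1)))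
    rw [r2 B B' p (h1 B hB B' hB' p)] at hX
    exact bal_anti hX hY hs
  · rintro X a b ⟨B, hB, hX⟩ ha hb
    exact ⟨B, hB, bal_exch hX ha hb⟩
  · intro L U hLU
    obtain ⟨B, hB, h⟩ := h2 L U hLU
    rcases h with h | h | h
    · obtain ⟨X, hX, h⟩ := bal_inter_of_as hLU ((AS.of_subset h).trans (r1 B).2)
      exact ⟨X, ⟨B, hB, hX⟩, h⟩
    · obtain ⟨X, hX, h⟩ := bal_inter_of_as' hLU ((r1 B).1.trans (AS.of_subset h))
      exact ⟨X, ⟨B, hB, hX⟩, h⟩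
    · obtain ⟨X, hX, k⟩ := bal_inter_of_as h.1 (r1 B).2
      rcases k with k | k | k
      · obtain ⟨Y, hY, j⟩ := bal_inter_of_as' h.2 (r1 B).1
        rcases j with j | j | j
        · exact ⟨Y, ⟨B, hB, hY⟩, Or.inl j⟩
        · have := bal_anti hY hX (j.trans k)
          subst this
          exact ⟨Y, ⟨B, hB, hY⟩, Or.inr (Or.inr ⟨h.1.trans k, j.trans h.2⟩)⟩
        · exact ⟨Y, ⟨B, hB, hY⟩, Or.inr (Or.inr ⟨h.1.trans j.1, j.2⟩)⟩
      · exact ⟨X, ⟨B, hB, hX⟩, Or.inr (Or.inl k)⟩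
      · exact ⟨X, ⟨B, hB, hX⟩, Or.inr (Or.inr ⟨k.1, k.2.trans h.2⟩)⟩
  · rintro X ⟨B, hB, hX⟩
    exact ⟨B, hB, (r1 B).2.trans hX.2.1, hX.1.trans (r1 B).1⟩

end Vale.Agent.P068
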