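import Vale.Agent.P068.ZCore

/-! A discrete sequence of ultrafilters of length the first uncountable ordinal that converges. -/

open Set Filter

namespace Vale.Agent.P068

variable {ι : Type}

/-- a Boolean combination -/
def Cell (E : ι → Set ℕ) (P N : Set ι) : Set ℕ := {n | (∀ a ∈ P, n ∈ E a) ∧ ∀ b ∈ N, n ∉ E b}

lemma exists_indep (x : ι → Set ℕ) (hx : Function.Injective x) : ∃ E : ι → Set ℕ,
    ∀ P N : Set ι, P.Finite → N.Finite → Disjoint P N → (Cell E P N).Infinite := by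
  classical
  obtain ⟨e⟩ : Nonempty (ℕ ≃ ℕ × Finset (Finset ℕ)) := nonempty_equiv_of_countable
  let r : ℕ → ι → Finset ℕ := fun n a => (Finset.range n).filter (· ∈ x a)
  refine ⟨fun a => {m | r (e m).1 a ∈ (e m).2}, fun P N hP hN hd => ?_⟩
  have : ∀ a b : ι, ∃ i, a ≠ b → ¬ (i ∈ x a ↔ i ∈ x b) := by
    intro a b
    by_cases h : a = b
    · exact ⟨0, fun q => absurd h q⟩
    · by_contra q
      push Not at q
      exact h (hx (Set.ext fun i => (q i).2))
  choose f hf using this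
  obtain ⟨t, ht⟩ := (hP.image2 f hN).bddAbove
  refine Infinite.of_image (fun m => (e m).1) (infinite_of_forall_exists_gt fun n => ?_)
  refine ⟨n + t + 1, ⟨e.symm (n + t + 1, hP.toFinset.image (r (n + t + 1))), ⟨?_, ?_⟩, by simp⟩,
    by omega⟩
  · intro a ha
    simp only [mem_ofPred_eq, Equiv.apply_symm_apply]
    exact Finset.mem_image_of_mem _ (hP.mem_toFinset.2 ha)
  · intro b hb
    simp only [mem_ofPred_eq, Equiv.apply_symm_apply, Finset.mem_image]
    rintro ⟨a, ha, h⟩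
    have ha := hP.mem_toFinset.1 ha
    have h1 : f a b ≤ t := ht (mem_image2_of_mem ha hb)
    have h2 := Finset.ext_iff.1 h (f a b)
    simp only [r, Finset.mem_filter, Finset.mem_range, show f a b < n + t + 1 by omega,
      true_and] at h2
    exact hf a b (fun q => disjoint_left.1 hd ha (q ▸ hb)) h2

lemma ultra_of_dir (S : Set (Set ℕ)) (hn : S.Nonempty) (h0 : ∀ A ∈ S, A.Nonempty)
    (hd : ∀ A ∈ S, ∀ B ∈ S, ∃ C ∈ S, C ⊆ A ∩ B) : ∃ U : Ultrafilter ℕ, ∀ A ∈ S, A ∈ U := by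
  have := hn.to_subtype
  have h : NeBot (⨅ A : S, 𝓟 A.1) := by
    refine iInf_neBot_of_directed' ?_ fun A => principal_neBot_iff.2 (h0 _ A.2)
    rintro ⟨A, hA⟩ ⟨B, hB⟩
    obtain ⟨C, hC, h⟩ := hd A hA B hB
    exact ⟨⟨C, hC⟩, principal_mono.2 (h.trans inter_subset_left),
      principal_mono.2 (h.trans inter_subset_right)⟩
  refine ⟨Ultrafilter.of (⨅ A : S, 𝓟 A.1), fun A hA => Ultrafilter.of_le _ ?_⟩
  exact mem_iInf_of_mem ⟨A, hA⟩ (mem_principal_self A)

lemma exists_maxf (E : ι → Set ℕ)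
    (hE : ∀ P N : Set ι, P.Finite → N.Finite → Disjoint P N → (Cell E P N).Infinite) :
    ∃ F : Filter ℕ, F ≤ cofinite ∧
      (∀ P N : Set ι, P.Finite → N.Finite → Disjoint P N → (Cell E P N)ᶜ ∉ F) ∧
      ∀ A : Set ℕ, Aᶜ ∉ F → ∃ P N : Set ι, P.Finite ∧ N.Finite ∧ Disjoint P N ∧
        (Cell E P N)ᶜ ∪ A ∈ F := by
  obtain ⟨F, -, hF⟩ := zorn_le_nonempty₀ (α := (Filter ℕ)ᵒᵈ)
    {F | OrderDual.ofDual F ≤ cofinite ∧ ∀ P N : Set ι, P.Finite → N.Finite → Disjoint P N →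
      (Cell E P N)ᶜ ∉ OrderDual.ofDual F} (by
      intro c hc hch y hy
      refine ⟨OrderDual.toDual (⨅ G ∈ c, OrderDual.ofDual G), ⟨?_, ?_⟩, fun z hz => ?_⟩
      · exact (biInf_le (fun G => OrderDual.ofDual G) hy).trans (hc hy).1
      · intro P N hP hN hd h
        obtain ⟨G, hG, h⟩ := (mem_biInf_of_directed (f := fun G : (Filter ℕ)ᵒᵈ =>
          OrderDual.ofDual G) hch.directedOn ⟨y, hy⟩).1 h
        exact (hc hG).2 P N hP hN hd h
      · exact biInf_le (fun G => OrderDual.ofDual G) hz)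
    (OrderDual.toDual cofinite) ⟨le_rfl, fun P N hP hN hd h => hE P N hP hN hd (by simpa using h)⟩
  refine ⟨OrderDual.ofDual F, hF.1.1, hF.1.2, fun A hA => ?_⟩
  by_contra q
  push Not at q
  have := hF.2 (y := OrderDual.toDual (OrderDual.ofDual F ⊓ 𝓟 Aᶜ))
    ⟨inf_le_left.trans hF.1.1, fun P N hP hN hd h => q P N hP hN hd
      (mem_of_superset (mem_inf_principal.1 h) fun n hn => by
        by_cases j : n ∈ A
        · exact Or.inr j
        · exact Or.inl (hn j))⟩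
    (show OrderDual.ofDual F ⊓ 𝓟 Aᶜ ≤ OrderDual.ofDual F from inf_le_left)
  exact hA (this (mem_inf_of_right (mem_principal_self _)))

lemma exists_closed (φ : Set ι → Set ι → Set ι) (hφ : ∀ P N, (φ P N).Finite) :
    ∃ S : Set ι, S.Countable ∧ ∀ P N : Set ι, P.Finite → N.Finite → P ⊆ S → N ⊆ S → φ P N ⊆ S := by
  let T : ℕ → Set ι := fun n => Nat.rec ∅ (fun _ S => S ∪
    ⋃ P ∈ {P : Set ι | P.Finite ∧ P ⊆ S}, ⋃ N ∈ {P : Set ι | P.Finite ∧ P ⊆ S}, φ P N) n
  have hc : ∀ n, (T n).Countable := by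
    intro n
    induction n with
    | zero => exact countable_empty
    | succ n ih =>
      exact ih.union ((countable_ofPred_finite_subset ih).biUnion fun P _ =>
        (countable_ofPred_finite_subset ih).biUnion fun N _ => (hφ P N).countable)
  have hm : Monotone T := monotone_nat_of_le_succ fun n => subset_union_left
  refine ⟨⋃ n, T n, countable_iUnion hc, fun P N hP hN h1 h2 => ?_⟩
  obtain ⟨n, hn⟩ := hm.directed_le.exists_mem_subset_of_finset_subset_biUnion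
    (s := (hP.union hN).toFinset) (by simpa using ⟨h1, h2⟩)
  simp only [Finite.coe_toFinset, union_subset_iff] at hn
  refine fun a ha => mem_iUnion.2 ⟨n + 1, Or.inr ?_⟩
  exact mem_iUnion₂.2 ⟨P, ⟨hP, hn.1⟩, mem_iUnion₂.2 ⟨N, ⟨hN, hn.2⟩, ha⟩⟩

theorem exists_conv [LinearOrder ι] (hc : ∀ a : ι, (Iic a).Countable) (x : ι → Set ℕ)
    (hx : Function.Injective x) : ∃ (V : ι → Ultrafilter ℕ) (E : ι → Set ℕ),
    (∀ a, (V a : Filter ℕ) ≤ cofinite) ∧ (∀ a, E a ∈ V a) ∧ (∀ a b, a ≠ b → E a ∉ V b) ∧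
    ∀ A, (tr V A).Countable ∨ (tr V Aᶜ).Countable := by
  obtain ⟨E, hE⟩ := exists_indep x hx
  obtain ⟨F, F1, F2, F3⟩ := exists_maxf E hE
  let R : Set ι → Set ι → Set ℕ → Prop := fun P N A => (Cell E P N)ᶜ ∪ A ∈ F
  have Rm : ∀ P N A P' N' A', R P N A → P ⊆ P' → N ⊆ N' → A ⊆ A' → R P' N' A' :=
    fun P N A P' N' A' h p q r => mem_of_superset h fun n hn => hn.imp
      (fun i j => i ⟨fun a ha => j.1 a (p ha), fun a ha => j.2 a (q ha)⟩) (fun i => r i)
  have Ri : ∀ P N A B, R P N A → R P N B → R P N (A ∩ B) := fun P N A B h k =>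
    mem_of_superset (inter_mem h k) fun n hn => by
      rcases hn with ⟨i | i, j | j⟩
      exacts [Or.inl i, Or.inl i, Or.inl j, Or.inr ⟨i, j⟩]
  have R0 : ∀ P N A, P.Finite → N.Finite → Disjoint P N → R P N A →
      (Cell E P N ∩ A).Nonempty := by
    intro P N A hP hN hd h
    by_contra q
    refine F2 P N hP hN hd (mem_of_superset h fun n hn j => ?_)
    exact hn.elim (fun i => i j) fun i => q ⟨n, j, i⟩
  have cp : ∀ P N p q, P.Finite → N.Finite → Disjoint P N → R P N (Cell E p q) →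
      Disjoint P q ∧ Disjoint p N := by
    intro P N p q hP hN hd h
    obtain ⟨n, h1, h2⟩ := R0 P N _ hP hN hd h
    exact ⟨disjoint_left.2 fun a i j => h2.2 a j (h1.1 a i),
      disjoint_left.2 fun a i j => h1.2 a j (h2.1 a i)⟩
  let Sp : Set ι → Set ℕ → Prop := fun S A => ∀ P N : Set ι, P.Finite → N.Finite → Disjoint P N →
    R P N A → R (P ∩ S) (N ∩ S) A
  have sp : ∀ A, ∃ S : Set ι, S.Countable ∧ Sp S A := by
    intro A
    have : ∀ p q : Set ι, ∃ P N : Set ι, P.Finite ∧ N.Finite ∧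
        ((∃ P N : Set ι, P.Finite ∧ N.Finite ∧ Disjoint P N ∧ p ⊆ P ∧ q ⊆ N ∧ R P N Aᶜ) →
          Disjoint P N ∧ p ⊆ P ∧ q ⊆ N ∧ R P N Aᶜ) := by
      intro p q
      by_cases h : ∃ P N : Set ι, P.Finite ∧ N.Finite ∧ Disjoint P N ∧ p ⊆ P ∧ q ⊆ N ∧ R P N Aᶜ
      · obtain ⟨P, N, h1, h2, h3⟩ := h
        exact ⟨P, N, h1, h2, fun _ => h3⟩
      · exact ⟨∅, ∅, finite_empty, finite_empty, fun j => absurd j h⟩
    choose f g hf hg hfg using this
    obtain ⟨S, S1, S2⟩ := exists_closed (fun p q => f p q ∪ g p q)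
      fun p q => (hf p q).union (hg p q)
    refine ⟨S, S1, fun P N hP hN hd h => ?_⟩
    by_contra k
    have fp := hP.subset (inter_subset_left (t := S))
    have fq := hN.subset (inter_subset_left (t := S))
    obtain ⟨P', N', a1, a2, a3, a4⟩ := F3 (Cell E (P ∩ S) (N ∩ S) ∩ Aᶜ) (fun j =>
      k (mem_of_superset j fun n hn => by
        by_cases i : n ∈ A
        · exact Or.inr i
        · exact Or.inl fun r => hn ⟨r, i⟩))
    obtain ⟨c1, c2⟩ := cp P' N' _ _ a1 a2 a3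
      (Rm _ _ _ _ _ _ a4 subset_rfl subset_rfl inter_subset_left)
    obtain ⟨b1, b2, b3, b4⟩ := hfg (P ∩ S) (N ∩ S) ⟨P' ∪ P ∩ S, N' ∪ N ∩ S, a1.union fp,
      a2.union fq, disjoint_union_left.2 ⟨disjoint_union_right.2 ⟨a3, c1⟩,
        disjoint_union_right.2 ⟨c2, hd.mono inter_subset_left inter_subset_left⟩⟩,
      subset_union_right, subset_union_right,
      Rm _ _ _ _ _ _ a4 subset_union_left subset_union_left inter_subset_right⟩
    have s := S2 _ _ fp fq inter_subset_right inter_subset_right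
    obtain ⟨n, -, h1, h2⟩ := R0 (P ∪ f (P ∩ S) (N ∩ S)) (N ∪ g (P ∩ S) (N ∩ S)) (A ∩ Aᶜ)
      (hP.union (hf _ _)) (hN.union (hg _ _))
      (disjoint_union_left.2 ⟨disjoint_union_right.2 ⟨hd, disjoint_left.2 fun a i j =>
        disjoint_left.1 b1 (b2 ⟨i, s (Or.inr j)⟩) j⟩, disjoint_union_right.2
        ⟨disjoint_left.2 fun a i j => disjoint_left.1 b1 i (b3 ⟨j, s (Or.inl i)⟩), b1⟩⟩)
      (Ri _ _ _ _ (Rm _ _ _ _ _ _ h subset_union_left subset_union_left subset_rfl)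
        (Rm _ _ _ _ _ _ b4 subset_union_right subset_union_right subset_rfl))
    exact h2 h1
  obtain ⟨U, hU⟩ := ultra_of_dir {B | ∃ A ∈ F, ∃ N : Set ι, N.Finite ∧ B = Cell E ∅ N ∩ A}
    ⟨_, univ, univ_mem, ∅, finite_empty, rfl⟩ (by
      rintro _ ⟨A, hA, N, hN, rfl⟩
      exact R0 _ _ _ finite_empty hN (empty_disjoint _) (mem_of_superset hA subset_union_right))
    (by
      rintro _ ⟨A, hA, N, hN, rfl⟩ _ ⟨A', hA', N', hN', rfl⟩
      exact ⟨_, ⟨A ∩ A', inter_mem hA hA', N ∪ N', hN.union hN', rfl⟩, fun n hn =>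
        ⟨⟨⟨hn.1.1, fun b hb => hn.1.2 b (Or.inl hb)⟩, hn.2.1⟩,
          ⟨hn.1.1, fun b hb => hn.1.2 b (Or.inr hb)⟩, hn.2.2⟩⟩)
  have UF : ∀ A ∈ F, A ∈ U := fun A hA =>
    mem_of_superset (hU _ ⟨A, hA, ∅, finite_empty, rfl⟩) inter_subset_right
  have hV : ∀ a : ι, ∃ V : Ultrafilter ℕ, ∀ B ∈ {B | ∃ A ∈ U, Sp (Iio a) A ∧ ∃ N : Set ι,
      N.Finite ∧ a ∉ N ∧ B = Cell E {a} N ∩ A}, B ∈ V := by
    intro a
    refine ultra_of_dir _ ⟨_, univ, univ_mem, fun _ _ _ _ _ _ => mem_of_superset univ_mem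
      subset_union_right, ∅, finite_empty, notMem_empty _, rfl⟩ ?_ ?_
    · rintro _ ⟨A, hA, hs, N, hN, ha, rfl⟩
      have h1 : Cell E ∅ N ∩ A ∈ U := inter_mem (mem_of_superset
        (hU _ ⟨univ, univ_mem, N, hN, rfl⟩) inter_subset_left) hA
      obtain ⟨P', N', a1, a2, a3, a4⟩ := F3 _ fun j =>
        Ultrafilter.compl_mem_iff_notMem.1 (UF _ j) h1
      obtain ⟨c1, -⟩ := cp P' N' _ _ a1 a2 a3
        (Rm _ _ _ _ _ _ a4 subset_rfl subset_rfl inter_subset_left)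
      obtain ⟨n, h2, h3⟩ := R0 (P' ∩ Iio a ∪ {a}) (N' ∩ Iio a ∪ N) A
        ((a1.subset inter_subset_left).union (finite_singleton a))
        ((a2.subset inter_subset_left).union hN)
        (disjoint_union_left.2 ⟨disjoint_union_right.2 ⟨a3.mono inter_subset_left
          inter_subset_left, c1.mono_left inter_subset_left⟩, disjoint_singleton_left.2
          fun j => j.elim (fun i => lt_irrefl a i.2) ha⟩)
        (Rm _ _ _ _ _ _ (hs P' N' a1 a2 a3
          (Rm _ _ _ _ _ _ a4 subset_rfl subset_rfl inter_subset_right))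
          subset_union_left subset_union_left subset_rfl)
      exact ⟨n, ⟨fun b hb => h2.1 b (Or.inr hb), fun b hb => h2.2 b (Or.inr hb)⟩, h3⟩
    · rintro _ ⟨A, hA, hs, N, hN, ha, rfl⟩ _ ⟨A', hA', hs', N', hN', ha', rfl⟩
      refine ⟨_, ⟨A ∩ A', inter_mem hA hA', fun P Q h1 h2 h3 h => Ri _ _ _ _
        (hs P Q h1 h2 h3 (Rm _ _ _ _ _ _ h subset_rfl subset_rfl inter_subset_left))
        (hs' P Q h1 h2 h3 (Rm _ _ _ _ _ _ h subset_rfl subset_rfl inter_subset_right)),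
        N ∪ N', hN.union hN', fun j => j.elim ha ha', rfl⟩, fun n hn =>
        ⟨⟨⟨hn.1.1, fun b hb => hn.1.2 b (Or.inl hb)⟩, hn.2.1⟩,
          ⟨hn.1.1, fun b hb => hn.1.2 b (Or.inr hb)⟩, hn.2.2⟩⟩
  choose V hV using hV
  have su : ∀ S, Sp S univ := fun _ _ _ _ _ _ _ => mem_of_superset univ_mem subset_union_right
  have VA : ∀ a, ∀ A ∈ U, Sp (Iio a) A → A ∈ V a := fun a A hA hs =>
    mem_of_superset (hV a _ ⟨A, hA, hs, ∅, finite_empty, notMem_empty _, rfl⟩) inter_subset_right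
  have cnt : ∀ A ∈ U, (tr V Aᶜ).Countable := by
    intro A hA
    obtain ⟨S, S1, S2⟩ := sp A
    refine (S1.biUnion fun b _ => hc b).mono fun a ha => ?_
    by_contra q
    simp only [mem_iUnion, mem_Iic, not_exists, not_le] at q
    refine Ultrafilter.compl_mem_iff_notMem.1 ha (VA a A hA fun P N h1 h2 h3 h => ?_)
    exact Rm _ _ _ _ _ _ (S2 P N h1 h2 h3 h) (fun b hb => ⟨hb.1, q b hb.2⟩)
      (fun b hb => ⟨hb.1, q b hb.2⟩) subset_rfl
  refine ⟨V, E, fun a A hA => VA a A (UF A (F1 hA)) fun _ _ _ _ _ _ =>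
    mem_of_superset (F1 hA) subset_union_right, fun a => ?_, fun a b hab => ?_, fun A => ?_⟩
  · exact mem_of_superset (hV a _ ⟨univ, univ_mem, su _, ∅, finite_empty, notMem_empty _, rfl⟩)
      fun n hn => hn.1.1 a rfl
  · refine Ultrafilter.compl_mem_iff_notMem.1 (mem_of_superset (hV b _ ⟨univ, univ_mem, su _, {a},
      finite_singleton a, fun j => hab j.symm, rfl⟩) fun n hn => hn.1.2 a rfl)
  · rcases U.mem_or_compl_mem A with h | h
    · exact Or.inr (cnt A h)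
    · exact Or.inl (by simpa using cnt _ h)

end Vale.Agent.P068
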