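import Vale.Agent.P068.ZUlt

/-! The comparator on small pairs and the uniform matroid on two copies of the naturals. -/

open Set Filter

namespace Vale.Agent.P068

/-- ultrafilters converging along the index order, with ladders -/
structure Sys (ι : Type) [LinearOrder ι] where
  V : ι → Ultrafilter ℕ
  E : ι → Set ℕ
  G : ι → ℕ → Set ι
  hc : ∀ a : ι, (Iic a).Countable
  hu : ¬ (univ : Set ι).Countable
  cof : ∀ a, (V a : Filter ℕ) ≤ cofinite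
  em : ∀ a, E a ∈ V a
  en : ∀ a b, a ≠ b → E a ∉ V b
  tot : ∀ A, (tr V A).Countable ∨ (tr V Aᶜ).Countable
  gm : ∀ a, Monotone (G a)
  gs : ∀ a s, G a s ⊆ Iio a
  g1 : ∀ a c, c < a → ∃ s, Iic c ⊆ G a s
  g2 : ∀ a s, G a s = ∅ ∨ ∃ c < a, G a s ⊆ Iic c

lemma exists_ladder {ι : Type} [LinearOrder ι] [Nonempty ι] (hc : ∀ a : ι, (Iic a).Countable) :
    ∃ G : ι → ℕ → Set ι, (∀ a, Monotone (G a)) ∧ (∀ a s, G a s ⊆ Iio a) ∧
      (∀ a c, c < a → ∃ s, Iic c ⊆ G a s) ∧ ∀ a s, G a s = ∅ ∨ ∃ c < a, G a s ⊆ Iic c := by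
  choose e he using fun a => countable_iff_exists_subset_range.1 (hc a)
  refine ⟨fun a s => {x | ∃ i < s, e a i < a ∧ x ≤ e a i}, ?_, ?_, ?_, ?_⟩
  · rintro a s t hst x ⟨i, h1, h2⟩
    exact ⟨i, lt_of_lt_of_le h1 hst, h2⟩
  · rintro a s x ⟨i, -, h1, h2⟩
    exact lt_of_le_of_lt h2 h1
  · intro a c h
    obtain ⟨i, rfl⟩ := he a h.le
    exact ⟨i + 1, fun x hx => ⟨i, by omega, h, hx⟩⟩
  · intro a s
    rcases ((Finset.range s).filter fun i => e a i < a).eq_empty_or_nonempty with h | h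
    · refine Or.inl (eq_empty_iff_forall_notMem.2 ?_)
      rintro x ⟨i, h1, h2, -⟩
      exact Finset.filter_eq_empty_iff.1 h (Finset.mem_range.2 h1) h2
    · obtain ⟨j, j1, j2⟩ := Finset.exists_max_image _ (e a) h
      refine Or.inr ⟨e a j, (Finset.mem_filter.1 j1).2, ?_⟩
      rintro x ⟨i, h1, h2, h3⟩
      exact h3.trans (j2 i (Finset.mem_filter.2 ⟨Finset.mem_range.2 h1, h2⟩))

lemma exists_sys : ∃ (ι : Type) (_ : LinearOrder ι) (_ : WellFoundedLT ι), Nonempty (Sys ι) := by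
  let ι := (Cardinal.aleph.{0} 1).ord.ToType
  have hi : Cardinal.mk ι = Cardinal.aleph 1 := Cardinal.mk_ord_toType _
  have hu : ¬ (univ : Set ι).Countable := by
    rw [← Cardinal.le_aleph0_iff_set_countable, Cardinal.mk_univ, hi]
    exact not_le.2 Cardinal.aleph0_lt_aleph_one
  have hc : ∀ a : ι, (Iic a).Countable := fun a => by
    rw [← Iio_insert]
    refine Countable.insert a ?_
    rw [← Cardinal.le_aleph0_iff_set_countable, ← Cardinal.lt_aleph_one_iff]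
    exact lt_of_lt_of_eq (Cardinal.mk_Iio_lt a (by simp [ι])) hi
  have : Nonempty ι := by
    by_contra q
    have := not_nonempty_iff.1 q
    exact hu (to_countable _)
  obtain ⟨x⟩ : Nonempty (ι ↪ Set ℕ) := by
    rw [← Cardinal.le_def, hi]
    simpa using Cardinal.aleph_one_le_continuum
  obtain ⟨V, E, h1, h2, h3, h4⟩ := exists_conv hc x x.injective
  obtain ⟨G, k1, k2, k3, k4⟩ := exists_ladder hc
  exact ⟨ι, inferInstance, inferInstance, ⟨⟨V, E, G, hc, hu, h1, h2, h3, h4, k1, k2, k3, k4⟩⟩⟩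

lemma exists_max {ι : Type} [LinearOrder ι] [WellFoundedLT ι] {A : Set ι} {c : ι}
    (hb : ∀ a ∈ A, a ≤ c) (h : ∀ a, (∀ b ∈ A, b < a) → (∀ c < a, ∃ b ∈ A, c < b) → a ∈ A) :
    ∃ a ∈ A, ∀ b ∈ A, b ≤ a := by
  obtain ⟨a, h1, h2⟩ := (wellFounded_lt (α := ι)).has_min {u | ∀ b ∈ A, b ≤ u} ⟨c, hb⟩
  refine ⟨a, ?_, h1⟩
  by_contra q
  refine q (h a (fun b hb => lt_of_le_of_ne (h1 b hb) fun j => q (j ▸ hb)) fun c hc => ?_)
  by_contra r
  push Not at r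
  exact h2 c r hc

/-- finite pieces of the ground set -/
def Dn (s : ℕ) : Set (ℕ ⊕ ℕ) := {e | Encodable.encode e < s}

lemma dn_fin (s : ℕ) : (Dn s).Finite :=
  (finite_Iio s).preimage Encodable.encode_injective.injOn

namespace Sys

variable {ι : Type} [LinearOrder ι] (S : Sys ι)

/-- small sets -/
def sm (A : Set ℕ) : Prop := (tr S.V A).Countable

/-- accumulation -/
def Acc (T : Set ι) (b : ι) : Prop := ∀ n, (T ∩ (Iio b \ S.G b n)).Infinite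

/-- infinitely many infinite windows -/
def Inf (T : Set ι) (a : ι) : Prop := ∀ n, ∃ s, (T ∩ (S.G a s \ S.G a n)).Infinite

/-- heavy points -/
def Hvy (T : Set ι) (a : ι) : Prop :=
  ∀ n, HvAt (S.G a) (fun s => (Dn s).ncard + s) (fun _ => 0) T n

/-- the potential condition on one side -/
def PP (f : ℕ → ℕ ⊕ ℕ) (θ : ℕ → ℕ) (a : ι) (X : Set (ℕ ⊕ ℕ)) : Prop :=
  ∀ n, HvAt (S.G a) θ (fun s => (Dn s ∩ X).ncard) (tr S.V (f ⁻¹' X)) n

/-- progress on the left -/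
def P (a : ι) (X : Set (ℕ ⊕ ℕ)) : Prop := S.PP Sum.inl (fun s => 2 * (Dn s).ncard + s) a X

/-- no obstruction on the right -/
def Q (a : ι) (X : Set (ℕ ⊕ ℕ)) : Prop := ¬ Hi (S.PP Sum.inr (fun s => (Dn s).ncard + s) a) Xᶜ

/-- the domain of the comparator -/
def Dm (X : Set (ℕ ⊕ ℕ)) : Prop := S.sm (Sum.inl ⁻¹' X) ∧ S.sm (Sum.inr ⁻¹' Xᶜ)

/-- the comparator -/
def NN (X : Set (ℕ ⊕ ℕ)) : Prop := ∃ a, S.P a X ∧ ∀ b, a ≤ b → S.Q b X

variable {S}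

lemma sm.mono {A B : Set ℕ} (h : S.sm B) (hAB : AS A B) : S.sm A :=
  Countable.mono (fun k hk => mem_of_as (S.cof k) hAB hk) h

lemma sm.sub {A B : Set ℕ} (h : S.sm B) (hAB : A ⊆ B) : S.sm A := h.mono (AS.of_subset hAB)

lemma sm.union {A B : Set ℕ} (h : S.sm A) (k : S.sm B) : S.sm (A ∪ B) :=
  Countable.mono (fun _ hk => Ultrafilter.union_mem_iff.1 hk) (Countable.union h k)

lemma sm.not_compl {A : Set ℕ} (h : S.sm A) : ¬ S.sm Aᶜ := fun k =>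
  S.hu (Countable.mono (fun a _ => (S.V a).mem_or_compl_mem A) (Countable.union h k))

lemma sm_compl {A : Set ℕ} (h : ¬ S.sm A) : S.sm Aᶜ := (S.tot A).resolve_left h

lemma sm_fin {A : Set ℕ} (h : A.Finite) : S.sm A :=
  Countable.mono (fun k hk => (not_mem_of_fin (S.cof k) h hk).elim) countable_empty

lemma bdd (S : Sys ι) {T : Set ι} (h : T.Countable) : ∃ c, T ⊆ Iio c := by
  by_contra q
  push Not at q
  refine S.hu ((h.biUnion fun b _ => S.hc b).mono fun c _ => ?_)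
  obtain ⟨b, h1, h2⟩ := not_subset.1 (q c)
  exact mem_iUnion₂.2 ⟨b, h1, not_lt.1 h2⟩

lemma acc_of {T : Set ι} {b : ι} {θ c : ℕ → ℕ} (hθ : ∀ s, c s + s ≤ θ s)
    (h : ∀ n, HvAt (S.G b) θ c T n) : S.Acc T b := by
  intro n q
  obtain ⟨C, hC⟩ := h n
  obtain ⟨F, -, h2, h3⟩ := hC (C + (T ∩ (Iio b \ S.G b n)).ncard + 1)
  have := ncard_le_ncard (h2.trans (inter_subset_inter_right _
    (sdiff_subset_sdiff_left (S.gs _ _)))) q
  have := hθ (C + (T ∩ (Iio b \ S.G b n)).ncard + 1)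
  omega

lemma Acc.le {T : Set ι} {b c : ι} (h : S.Acc T b) (hT : T ⊆ Iio c) : b ≤ c := by
  by_contra q
  obtain ⟨s, hs⟩ := S.g1 b c (not_le.1 q)
  obtain ⟨a, h1, -, h2⟩ := (h s).nonempty
  exact h2 (hs (hT h1).le)

lemma inf_of_lim {T A : Set ι} {a : ι} (hA : ∀ b ∈ A, S.Acc T b) (hn : A.Nonempty)
    (h1 : ∀ b ∈ A, b < a) (h2 : ∀ c < a, ∃ b ∈ A, c < b) : S.Inf T a := by
  intro n
  have : ∃ b ∈ A, ∃ m, S.G a n ⊆ S.G b m := by
    rcases S.g2 a n with h | ⟨c, c1, c2⟩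
    · obtain ⟨b, hb⟩ := hn
      exact ⟨b, hb, 0, h ▸ empty_subset _⟩
    · obtain ⟨b, b1, b2⟩ := h2 c c1
      obtain ⟨m, hm⟩ := S.g1 b c b2
      exact ⟨b, b1, m, c2.trans hm⟩
  obtain ⟨b, hb, m, hm⟩ := this
  obtain ⟨s, hs⟩ := S.g1 a b (h1 b hb)
  exact ⟨s, (hA b hb m).mono fun k hk => ⟨hk.1, hs (le_of_lt hk.2.1), fun j => hk.2.2 (hm j)⟩⟩

lemma Inf.hv {T T' : Set ι} {a : ι} (h : S.Inf T a) (hT : T ⊆ T') (θ c : ℕ → ℕ) (n : ℕ) :
    HvAt (S.G a) θ c T' n := by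
  obtain ⟨s, hs⟩ := h n
  exact hvAt_of_inf (S.gm a) (hs.mono (inter_subset_inter_left _ hT))

lemma disj {K : Set ι} (hK : K.Countable) : ∃ E : ι → Set ℕ, (∀ k, E k ∈ S.V k) ∧
    ∀ k ∈ K, ∀ k' ∈ K, k ≠ k' → Disjoint (E k) (E k') := by
  obtain ⟨e, he⟩ := countable_iff_exists_injOn.1 hK
  refine ⟨fun k => S.E k ∩ ⋂ j ∈ {j | j ∈ K ∧ e j < e k}, (S.E j)ᶜ, fun k => ?_, ?_⟩
  · refine inter_mem (S.em k) ((biInter_mem ?_).2 fun j hj => ?_)
    · exact Finite.of_finite_image ((finite_Iio (e k)).subset (by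
        rintro _ ⟨j, hj, rfl⟩
        exact hj.2)) (he.mono fun j hj => hj.1)
    · exact Ultrafilter.compl_mem_iff_notMem.2 (S.en j k fun q => lt_irrefl _ (q ▸ hj.2))
  · intro k hk k' hk' hne
    rw [disjoint_left]
    rintro n ⟨h1, h2⟩ ⟨h3, h4⟩
    rcases lt_trichotomy (e k) (e k') with h | h | h
    · exact mem_iInter₂.1 h4 k ⟨hk, h⟩ h1
    · exact hne (he hk hk' h)
    · exact mem_iInter₂.1 h2 k' ⟨hk', h⟩ h3

lemma mep_pp {f : ℕ → ℕ ⊕ ℕ} (hf : Function.Injective f) (θ : ℕ → ℕ) (a : ι) :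
    Mep (fun _ => True) (S.PP f θ a) := by
  obtain ⟨E, h1, h2⟩ := S.disj ((S.hc a).mono Iio_subset_Iic_self)
  exact mep_hv (D := Dn) (G := S.G a) (V := fun k => (S.V k).map f) (E := fun k => f '' E k)
    dn_fin (fun _ _ h _ he => lt_of_lt_of_le he h) (fun _ => ⟨_, Nat.lt_succ_self _⟩) (S.gm a)
    (fun k => (map_mono (S.cof k)).trans hf.tendsto_cofinite)
    (fun _ k _ => image_mem_map (h1 k))
    (fun s k hk k' hk' h => disjoint_image_of_injective hf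
      (h2 k (S.gs a s hk) k' (S.gs a s hk') h)) θ

lemma P.hvy {a : ι} {X : Set (ℕ ⊕ ℕ)} (h : S.P a X) : S.Hvy (tr S.V (Sum.inl ⁻¹' X)) a := by
  intro n
  obtain ⟨C, hC⟩ := h n
  refine ⟨C, fun s => ?_⟩
  obtain ⟨F, h1, h2, h3⟩ := hC s
  have := ncard_le_ncard (inter_subset_left (s := Dn s) (t := X)) (dn_fin s)
  exact ⟨F, h1, h2, by simp only at h3 ⊢; omega⟩

lemma Hvy.acc {a : ι} {T : Set ι} (h : S.Hvy T a) : S.Acc T a := acc_of (fun s => by omega) h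

lemma not_q {a : ι} {X : Set (ℕ ⊕ ℕ)} (hX : S.sm (Sum.inl ⁻¹' X))
    (h : S.Hvy (tr S.V (Sum.inr ⁻¹' Xᶜ)) a) : ¬ S.Q a X := by
  refine not_not.2 ⟨Xᶜ ∩ range Sum.inr, AS.of_subset inter_subset_left, fun n => ?_, fun q => ?_⟩
  · obtain ⟨C, hC⟩ := h n
    refine ⟨C, fun s => ?_⟩
    obtain ⟨F, h1, h2, h3⟩ := hC s
    exact ⟨F, h1, h2.trans (inter_subset_inter_left _ (tr_mono fun m hm => ⟨hm, m, rfl⟩)),
      by simp only at h3 ⊢; omega⟩
  · refine hX.not_compl (sm_fin ((q.preimage Sum.inl_injective.injOn).subset fun m hm => ?_))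
    exact ⟨hm, fun j => by simpa using j.2⟩

lemma acc_of_not_q {a : ι} {X : Set (ℕ ⊕ ℕ)} (h : ¬ S.Q a X) :
    S.Acc (tr S.V (Sum.inr ⁻¹' Xᶜ)) a := by
  obtain ⟨w, h1, h2, -⟩ := not_not.1 h
  refine acc_of (fun s => ?_) ((mep_pp Sum.inr_injective _ a).mono w _ trivial trivial h1 h2)
  have := ncard_le_ncard (inter_subset_left (s := Dn s) (t := Xᶜ)) (dn_fin s)
  omega

lemma cvx : Cvx S.Dm := fun _ _ _ hx hy h1 h2 =>
  ⟨hy.1.sub (preimage_mono h2), hx.2.sub (preimage_mono (compl_subset_compl.2 h1))⟩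

theorem mep_nn [WellFoundedLT ι] : Mep S.Dm S.NN := by
  refine Mep.ex cvx (fun a => Mep.and cvx ((mep_pp Sum.inl_injective _ a).restrict _)
    (Mep.all cvx (fun b => (((mep_pp Sum.inr_injective _ b).dual).restrict _).imp _) ?_)) ?_
  · intro X hX b0 hb0
    obtain ⟨c, hc⟩ := S.bdd hX.2
    have hA : ∀ b ∈ {b | ¬ (a ≤ b → S.Q b X)}, S.Acc (tr S.V (Sum.inr ⁻¹' Xᶜ)) b :=
      fun b hb => acc_of_not_q fun q => hb fun _ => q
    refine exists_max (A := {b | ¬ (a ≤ b → S.Q b X)}) (fun b hb => (hA b hb).le hc)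
      fun b h1 h2 q => ?_
    refine not_q hX.1 ((inf_of_lim hA ⟨b0, hb0⟩ h1 h2).hv subset_rfl _ _) (q ?_)
    by_contra r
    exact hb0 fun j => absurd (j.trans (h1 b0 hb0).le) r
  · intro X hX a0 ha0
    obtain ⟨c, hc⟩ := S.bdd hX.1
    have hA : ∀ a ∈ {a | S.P a X ∧ ∀ b, a ≤ b → S.Q b X}, S.Acc (tr S.V (Sum.inl ⁻¹' X)) a :=
      fun a ha => ha.1.hvy.acc
    exact exists_max (A := {a | S.P a X ∧ ∀ b, a ≤ b → S.Q b X}) (fun b hb => (hA b hb).le hc)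
      fun b h1 h2 => ⟨(inf_of_lim hA ⟨a0, ha0⟩ h1 h2).hv subset_rfl _ _,
        fun d hd => ha0.2 d ((h1 a0 ha0).le.trans hd)⟩

lemma bdry [WellFoundedLT ι] {A : Set ℕ} (hA : ¬ S.sm A) (c : ι) :
    ∃ Z ⊆ A, S.sm Z ∧ ∃ a, c < a ∧ S.Inf (tr S.V Z) a := by
  obtain ⟨c0, hc0⟩ := S.bdd (sm_compl hA)
  have : ∀ b : ι, ∃ b', b < b' ∧ (Ioo b b').Infinite := by
    intro b
    have i : (Ioi b).Infinite := fun q => S.hu (by
      rw [← Iic_union_Ioi (a := b)]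
      exact (S.hc b).union q.countable)
    obtain ⟨T, T1, T3, T2⟩ := i.exists_subset_countable_infinite
    obtain ⟨b', hb⟩ := S.bdd T3
    obtain ⟨k, hk⟩ := T2.nonempty
    exact ⟨b', lt_trans (T1 hk) (hb hk), T2.mono fun k hk => ⟨T1 hk, hb hk⟩⟩
  choose g g1 g2 using this
  let β : ℕ → ι := fun n => g^[n] (max c c0)
  have β1 : ∀ n, β (n + 1) = g (β n) := fun n => Function.iterate_succ_apply' _ _ _
  have βm : StrictMono β := strictMono_nat_of_lt_succ fun n => β1 n ▸ g1 _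
  obtain ⟨u, hu⟩ := S.bdd (countable_range β)
  obtain ⟨a, a1, a2⟩ := (wellFounded_lt (α := ι)).has_min {u | ∀ n, β n < u}
    ⟨u, fun n => hu ⟨n, rfl⟩⟩
  obtain ⟨E, E1, E2⟩ := S.disj (S.hc a)
  let K : ℕ → Set ι := fun i => {k | ∃ n, β (2 * n + i) < k ∧ k < β (2 * n + i + 1)}
  let Z : ℕ → Set ℕ := fun i => A ∩ ⋃ k ∈ K i, E k
  have hZ : ∀ i, S.Inf (tr S.V (Z i)) a := by
    intro i n
    have : ∃ m, S.G a n ⊆ Iic (β (2 * m + i)) := by
      rcases S.g2 a n with h | ⟨d, d1, d2⟩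
      · exact ⟨0, h ▸ empty_subset _⟩
      · have : ¬ ∀ m, β m < d := fun j => a2 d j d1
        push Not at this
        obtain ⟨m, hm⟩ := this
        exact ⟨m, d2.trans (Iic_subset_Iic.2 (hm.trans (βm.monotone (by omega))))⟩
    obtain ⟨m, hm⟩ := this
    obtain ⟨s, hs⟩ := S.g1 a _ (a1 (2 * m + i + 1))
    refine ⟨s, (g2 (β (2 * m + i))).mono fun k hk => ?_⟩
    rw [← β1] at hk
    refine ⟨?_, hs hk.2.le, fun j => not_le.2 hk.1 (hm j)⟩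
    have : A ∈ S.V k := by
      by_contra q
      have h1 := hc0 (Ultrafilter.compl_mem_iff_notMem.2 q)
      exact lt_asymm h1 (lt_of_le_of_lt ((le_max_right c c0).trans
        (βm.monotone (Nat.zero_le _))) hk.1)
    exact mem_of_superset (inter_mem this (E1 k)) fun e he =>
      ⟨he.1, mem_iUnion₂.2 ⟨k, ⟨m, hk⟩, he.2⟩⟩
  have ca : c < a := lt_of_le_of_lt (le_max_left c c0) (a1 0)
  by_cases q : S.sm (Z 0)
  · exact ⟨Z 0, inter_subset_left, q, a, ca, hZ 0⟩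
  · refine ⟨Z 1, inter_subset_left, (sm_compl q).sub ?_, a, ca, hZ 1⟩
    rintro e ⟨-, h1⟩ ⟨-, h0⟩
    obtain ⟨k, ⟨n, k1, k2⟩, k3⟩ := mem_iUnion₂.1 h1
    obtain ⟨j, ⟨m, j1, j2⟩, j3⟩ := mem_iUnion₂.1 h0
    refine disjoint_left.1 (E2 k (k2.trans (a1 _)).le j (j2.trans (a1 _)).le ?_) k3 j3
    rintro rfl
    have := βm.lt_iff_lt.1 (k1.trans j2)
    have := βm.lt_iff_lt.1 (j1.trans k2)
    omega

end Sys

end Vale.Agent.P068
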